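import Vale.Agent.P084.Sperner

/-!
An approximate fixed point theorem of Darbo type.
-/

namespace Vale.Agent.P084

open Set

variable {Y : Type*} [SeminormedAddCommGroup Y] [NormedSpace ℝ Y]

/-- The set splits into finitely many pieces of diameter at most `ε`. -/
def Cov (A : Set Y) (ε : ℝ) : Prop :=
  ∃ (ι : Type) (_ : Fintype ι) (κ : Y → ι), ∀ u ∈ A, ∀ v ∈ A, κ u = κ v → ‖u - v‖ ≤ ε

theorem exists_color {η : ℝ} (hη : 0 < η) : ∃ (ι : Type) (_ : Fintype ι) (κ : ℝ → ι),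
    ∀ s ∈ Icc (0 : ℝ) 2, ∀ t ∈ Icc (0 : ℝ) 2, κ s = κ t → |s - t| ≤ η := by
  refine ⟨Fin (⌊2 / η⌋₊ + 1), inferInstance, fun s => ⟨min ⌊s / η⌋₊ ⌊2 / η⌋₊, by omega⟩,
    fun s hs t ht h => ?_⟩
  have h1 : ∀ s ∈ Icc (0 : ℝ) 2, ⌊s / η⌋₊ ≤ ⌊2 / η⌋₊ := fun s hs =>
    Nat.floor_le_floor (by gcongr; exact hs.2)
  simp only [Fin.mk.injEq, min_eq_left (h1 s hs), min_eq_left (h1 t ht)] at h
  have h2 := Nat.floor_le (div_nonneg hs.1 hη.le)
  have h3 := Nat.floor_le (div_nonneg ht.1 hη.le)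
  have h4 := Nat.lt_floor_add_one (s / η)
  have h5 := Nat.lt_floor_add_one (t / η)
  rw [h] at h2 h4
  rw [le_div_iff₀ hη] at h2 h3
  rw [div_lt_iff₀ hη] at h4 h5
  rw [abs_le]; constructor <;> nlinarith

theorem Cov.convexHull {A : Set Y} {ε η : ℝ} (h : Cov A ε) (hε : 0 ≤ ε) (hA : ∀ u ∈ A, ‖u‖ ≤ 1)
    (hη : 0 < η) : Cov (convexHull ℝ A) (ε + η) := by
  classical
  obtain ⟨ι, _, κ, h⟩ := h
  set C : ι → Set Y := fun i => _root_.convexHull ℝ
    (if (A ∩ κ ⁻¹' {i}).Nonempty then A ∩ κ ⁻¹' {i} else {0}) with hC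
  have hC1 : ∀ i, ∀ g ∈ C i, ‖g‖ ≤ 1 := fun i g hg => by
    refine mem_closedBall_zero_iff.1 (convexHull_min (fun u hu => ?_) (convex_closedBall _ _) hg)
    split_ifs at hu
    · exact mem_closedBall_zero_iff.2 (hA u hu.1)
    · simp [show u = 0 from hu]
  have hC2 : ∀ i, ∀ g ∈ C i, ∀ g' ∈ C i, ‖g - g'‖ ≤ ε := fun i g hg g' hg' => by
    obtain ⟨u, hu, v, hv, h'⟩ := convexHull_exists_dist_ge2 hg hg'
    rw [dist_eq_norm, dist_eq_norm] at h'
    refine h'.trans ?_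
    split_ifs at hu hv
    · exact h u hu.1 v hv.1 (hu.2.trans hv.2.symm)
    · simp [show u = 0 from hu, show v = 0 from hv, hε]
  have hC3 : ∀ i, (C i).Nonempty := fun i => by
    refine convexHull_nonempty_iff.2 ?_
    split_ifs with h'
    exacts [h', singleton_nonempty _]
  have hB : ∀ u ∈ _root_.convexHull ℝ A, ∃ (t : ι → ℝ) (g : ι → Y), (∀ i, 0 ≤ t i) ∧
      ∑ i, t i = 1 ∧ (∀ i, g i ∈ C i) ∧ u = ∑ i, t i • g i := by
    refine convexHull_min (fun u hu => ?_) ?_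
    · choose g hg using hC3
      refine ⟨Pi.single (κ u) 1, Function.update g (κ u) u, fun i => ?_, by simp, fun i => ?_, ?_⟩
      · rw [Pi.single_apply]; split_ifs <;> norm_num
      · rcases eq_or_ne i (κ u) with rfl | hi
        · rw [Function.update_self]
          refine subset_convexHull _ _ ?_
          rw [if_pos ⟨u, hu, rfl⟩]; exact ⟨hu, rfl⟩
        · rw [Function.update_of_ne hi]; exact hg i
      · rw [Finset.sum_eq_single (κ u)] <;> simp +contextual [Pi.single_apply]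
    · rintro _ ⟨t, g, h1, h2, h3, rfl⟩ _ ⟨t', g', h1', h2', h3', rfl⟩ α β hα hβ hαβ
      choose g'' h4 h5 using fun i => (convex_convexHull ℝ _).exists_mem_add_smul_eq (h3 i) (h3' i)
        (mul_nonneg hα (h1 i)) (mul_nonneg hβ (h1' i))
      refine ⟨fun i => α * t i + β * t' i, g'', fun i => add_nonneg (mul_nonneg hα (h1 i))
        (mul_nonneg hβ (h1' i)), ?_, h4, ?_⟩
      · rw [Finset.sum_add_distrib, ← Finset.mul_sum, ← Finset.mul_sum, h2, h2']; linarith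
      · simp only [h5, Finset.sum_add_distrib, Finset.smul_sum, smul_smul]
  choose! t g h1 h2 h3 h4 using hB
  obtain ⟨ι', _, κ', h'⟩ := exists_color (show 0 < η / (Fintype.card ι + 1) by positivity)
  refine ⟨ι → ι', inferInstance, fun u i => κ' (t u i), fun u hu v hv huv => ?_⟩
  have h5 : ∀ u ∈ _root_.convexHull ℝ A, ∀ i, t u i ∈ Icc (0 : ℝ) 2 := fun u hu i =>
    ⟨h1 u hu i, by
      have := Finset.single_le_sum (fun j _ => h1 u hu j) (Finset.mem_univ i)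
      linarith [h2 u hu]⟩
  rw [h4 u hu, h4 v hv, ← Finset.sum_sub_distrib]
  calc _ ≤ ∑ i, (t u i * ε + η / (Fintype.card ι + 1)) := by
        refine norm_sum_le_of_le _ fun i _ => ?_
        rw [show t u i • g u i - t v i • g v i =
          t u i • (g u i - g v i) + (t u i - t v i) • g v i by module]
        refine norm_add_le_of_le ?_ ?_
        · rw [norm_smul, Real.norm_of_nonneg (h1 u hu i)]
          exact mul_le_mul_of_nonneg_left (hC2 i _ (h3 u hu i) _ (h3 v hv i)) (h1 u hu i)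
        · rw [norm_smul, Real.norm_eq_abs]
          exact (mul_le_of_le_one_right (abs_nonneg _) (hC1 i _ (h3 v hv i))).trans
            (h' _ (h5 u hu i) _ (h5 v hv i) (congrFun huv i))
    _ ≤ _ := by
        rw [Finset.sum_add_distrib, ← Finset.sum_mul, h2 u hu, one_mul, Finset.sum_const,
          Finset.card_univ, nsmul_eq_mul, add_le_add_iff_left, mul_div_assoc',
          div_le_iff₀ (by positivity)]
        nlinarith

theorem fixed_of_cov {K : Set Y} (hK : Convex ℝ K) (hne : K.Nonempty) (hK1 : ∀ u ∈ K, ‖u‖ ≤ 1)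
    {Φ : Y → Y} (hΦ : MapsTo Φ K K) {L : ℝ} (hL0 : 0 < L)
    (hL : ∀ u ∈ K, ∀ v ∈ K, ‖Φ u - Φ v‖ ≤ L * ‖u - v‖) {ε : ℝ} (hε : 0 < ε) (h : Cov K ε) :
    ∃ u ∈ K, ‖Φ u - u‖ < 3 * ε := by
  classical
  by_contra hc
  push Not at hc
  obtain ⟨ι, _, κ, h⟩ := h
  have : ∀ i, ∃ w ∈ K, ∀ u ∈ K, κ u = i → ‖u - w‖ ≤ ε := fun i => by
    by_cases hi : ∃ w ∈ K, κ w = i
    · obtain ⟨w, hw, rfl⟩ := hi
      exact ⟨w, hw, fun u hu => h u hu w hw⟩
    · exact ⟨_, hne.some_mem, fun u hu hu' => (hi ⟨u, hu, hu'⟩).elim⟩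
  choose w hw1 hw2 using this
  set P : (ι → ℝ) → Y := fun t => ∑ i, t i • w i with hP
  have hPK : ∀ t ∈ stdSimplex ℝ ι, P t ∈ K := fun t ht =>
    hK.sum_mem (fun i _ => ht.1 i) ht.2 fun i _ => hw1 i
  have : ∀ t : ι → ℝ, ∃ i, t ∈ stdSimplex ℝ ι → t i ≠ 0 ∧ 3 * ε ≤ ‖Φ (P t) - w i‖ := fun t => by
    by_contra hc'
    push Not at hc'
    have ht := (hc' (κ hne.some)).1
    refine (hc _ (hPK t ht)).not_gt ?_
    generalize Φ (P t) = o at hc'
    rw [← mem_ball_iff_norm', hP]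
    simp only
    rw [← Finset.sum_filter_of_ne (p := fun i => t i ≠ 0) fun i _ hi h0 => hi (by simp [h0])]
    refine (convex_ball _ _).sum_mem (fun i _ => ht.1 i) ?_ fun i hi => ?_
    · rw [Finset.sum_filter_ne_zero]; exact ht.2
    · exact mem_ball_iff_norm'.2 ((hc' i).2 (Finset.mem_filter.1 hi).2)
  choose φ hφ using this
  have hS : ∀ S : List ι, ∀ t ∈ convexHull ℝ {x | x ∈ S.map fun i => (Pi.single i 1 : ι → ℝ)},
      t ∈ stdSimplex ℝ ι ∧ ∀ i ∉ S, t i = 0 := fun S => by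
    refine convexHull_min (fun x hx => ?_) ((convex_stdSimplex ℝ ι).inter ?_)
    · obtain ⟨j, hj, rfl⟩ := List.mem_map.1 hx
      exact ⟨single_mem_stdSimplex ℝ j, fun i hi => Pi.single_eq_of_ne (by rintro rfl; exact hi hj) _⟩
    · intro x hx y hy α β _ _ _ i hi
      simp [hx i hi, hy i hi]
  obtain ⟨t₀, h0, h1⟩ := sperner (fun i => (Pi.single i 1 : ι → ℝ)) φ Finset.univ.toList
    (Finset.nodup_toList _) (List.ne_nil_of_mem (a := κ hne.some) (by simp))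
    (fun S _ t ht => by_contra fun hi => (hφ t (hS S t ht).1).1 ((hS S t ht).2 _ hi))
    (show 0 < ε / (L * (Fintype.card ι + 1)) by positivity)
  have h2 := hPK _ (hS _ _ h0).1
  obtain ⟨t, h3, h4, h5⟩ := h1 (κ (Φ (P t₀))) (by simp)
  have h6 := (hφ t (hS _ _ h3).1).2
  have h7 := hw2 _ _ (hΦ h2) h4.symm
  have h8 : ‖P t - P t₀‖ ≤ Fintype.card ι * (ε / (L * (Fintype.card ι + 1))) := by
    rw [hP, ← Finset.sum_sub_distrib, ← nsmul_eq_mul, ← Finset.card_univ, ← Finset.sum_const]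
    refine norm_sum_le_of_le _ fun i _ => ?_
    rw [← sub_smul, norm_smul]
    exact (mul_le_of_le_one_right (norm_nonneg _) (hK1 _ (hw1 i))).trans
      ((dist_le_pi_dist t t₀ i).trans h5)
  have h9 : L * ‖P t - P t₀‖ ≤ ε := by
    refine (mul_le_mul_of_nonneg_left h8 hL0.le).trans ?_
    rw [← mul_assoc, mul_div_assoc', div_le_iff₀ (by positivity)]
    nlinarith [mul_pos hL0 hε]
  have h10 := hL _ (hPK _ (hS _ _ h3).1) _ h2
  have h11 := norm_sub_le_norm_sub_add_norm_sub (Φ (P t)) (Φ (P t₀)) (w (φ t))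
  linarith

theorem approx_fixed {G : Set Y} (hG : Convex ℝ G) (hne : G.Nonempty) (hG1 : ∀ u ∈ G, ‖u‖ ≤ 1)
    {Φ : Y → Y} (hΦ : MapsTo Φ G G) {L γ M : ℝ} (hL0 : 0 < L) (hγ0 : 0 ≤ γ) (hγ : γ < 1)
    (hM : 0 < M) (hL : ∀ u ∈ G, ∀ v ∈ G, ‖Φ u - Φ v‖ ≤ L * ‖u - v‖) {π₁ π₂ : Y → ℝ}
    (h₁ : ∀ u ∈ G, π₁ u ∈ Icc (0 : ℝ) 2) (h₂ : ∀ u ∈ G, π₂ u ∈ Icc (0 : ℝ) 2)
    (hc : ∀ u ∈ G, ∀ v ∈ G, ‖Φ u - Φ v‖ ≤ γ * ‖u - v‖ + M * (|π₁ u - π₁ v| + |π₂ u - π₂ v|))
    {ε : ℝ} (hε : 0 < ε) : ∃ u ∈ G, ‖Φ u - u‖ < ε := by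
  have key : ∀ n : ℕ, ∃ K ⊆ G, Convex ℝ K ∧ K.Nonempty ∧ MapsTo Φ K K ∧
      Cov K (2 * ((1 + γ) / 2) ^ n) := by
    intro n
    induction n with
    | zero =>
      refine ⟨G, Subset.rfl, hG, hne, hΦ, Unit, inferInstance, fun _ => (), fun u hu v hv _ => ?_⟩
      linarith [norm_sub_le u v, hG1 u hu, hG1 v hv]
    | succ n ih =>
      obtain ⟨K, h1, h2, h3, h4, ι, _, κ, h5⟩ := ih
      have h6 : convexHull ℝ (Φ '' K) ⊆ K := convexHull_min h4.image_subset h2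
      set δ := 2 * ((1 + γ) / 2) ^ n with hδ
      have hδ0 : 0 < δ := by positivity
      have h7 : 0 < (1 - γ) * δ / 4 := by have := sub_pos.2 hγ; positivity
      refine ⟨_, h6.trans h1, convex_convexHull _ _, convexHull_nonempty_iff.2 (h3.image _),
        fun u hu => subset_convexHull _ _ ⟨u, h6 hu, rfl⟩, ?_⟩
      rw [show 2 * ((1 + γ) / 2) ^ (n + 1) = γ * δ + (1 - γ) * δ / 4 + (1 - γ) * δ / 4 by
        rw [hδ]; ring]
      refine Cov.convexHull ?_ (by positivity) (fun u hu => hG1 u (h1 (h4.image_subset hu))) h7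
      obtain ⟨ι', _, κ', h8⟩ := exists_color (show 0 < (1 - γ) * δ / 4 / (2 * M) by positivity)
      have : ∀ y ∈ Φ '' K, ∃ u ∈ K, Φ u = y := fun y hy => hy
      choose! s hs1 hs2 using this
      refine ⟨ι × ι' × ι', inferInstance, fun y => (κ (s y), κ' (π₁ (s y)), κ' (π₂ (s y))),
        fun y hy y' hy' e => ?_⟩
      simp only [Prod.mk.injEq] at e
      have h9 := hc _ (h1 (hs1 y hy)) _ (h1 (hs1 y' hy'))
      rw [hs2 y hy, hs2 y' hy'] at h9
      have h10 := h8 _ (h₁ _ (h1 (hs1 y hy))) _ (h₁ _ (h1 (hs1 y' hy'))) e.2.1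
      have h11 := h8 _ (h₂ _ (h1 (hs1 y hy))) _ (h₂ _ (h1 (hs1 y' hy'))) e.2.2
      refine h9.trans (add_le_add (mul_le_mul_of_nonneg_left (h5 _ (hs1 y hy) _ (hs1 y' hy') e.1)
        hγ0) ((mul_le_mul_of_nonneg_left (add_le_add h10 h11) hM.le).trans (le_of_eq ?_)))
      field_simp; norm_num
  obtain ⟨n, hn⟩ := exists_pow_lt_of_lt_one (show 0 < ε / 6 by positivity)
    (show (1 + γ) / 2 < 1 by linarith)
  obtain ⟨K, h1, h2, h3, h4, h5⟩ := key n
  obtain ⟨u, hu, h6⟩ := fixed_of_cov h2 h3 (fun u hu => hG1 u (h1 hu)) h4 hL0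
    (fun u hu v hv => hL u (h1 hu) v (h1 hv)) (by positivity) h5
  exact ⟨u, h1 hu, by linarith⟩

end Vale.Agent.P084
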