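import Vale.Agent.P084.Plane
import Vale.Agent.P084.Darbo

/-!
The maximal distance defect of the radial extension cannot be attained.
-/

namespace Vale.Agent.P084

open Set Filter Topology

variable {X Y : Type*} [SeminormedAddCommGroup X] [NormedSpace ℝ X]
  [SeminormedAddCommGroup Y] [NormedSpace ℝ Y]

/-- Limit along the hyperfilter. -/
noncomputable def ul (f : ℕ → ℝ) : ℝ := limUnder (hyperfilter ℕ) f

theorem tendsto_ul {f : ℕ → ℝ} {C : ℝ} (h : ∀ n, |f n| ≤ C) :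
    Tendsto f (hyperfilter ℕ) (𝓝 (ul f)) := by
  obtain ⟨x, -, hx⟩ := (isCompact_Icc (a := -C) (b := C)).ultrafilter_le_nhds
    ((hyperfilter ℕ).map f) (by
      rw [le_principal_iff]; exact mem_map.2 (univ_mem' fun n => abs_le.1 (h n)))
  exact tendsto_nhds_limUnder ⟨x, hx⟩

theorem norm_combo {u v : X} (hu : ‖u‖ = 1) (hv : ‖v‖ = 1) (h : ‖u + v‖ = 2) {s t : ℝ}
    (hs : 0 ≤ s) (ht : 0 ≤ t) : ‖s • u + t • v‖ = s + t := by
  refine le_antisymm ((norm_add_le _ _).trans (by simp [norm_smul, hu, hv, abs_of_nonneg, hs, ht])) ?_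
  have h1 := norm_add_le (s • u + t • v) (t • u + s • v)
  have h2 : ‖t • u + s • v‖ ≤ t + s :=
    (norm_add_le _ _).trans (by simp [norm_smul, hu, hv, abs_of_nonneg, hs, ht])
  rw [show s • u + t • v + (t • u + s • v) = (s + t) • (u + v) by module, norm_smul, h,
    Real.norm_of_nonneg (by positivity)] at h1
  linarith

theorem al_of_combo {u v : X} (hu : ‖u‖ = 1) (hv : ‖v‖ = 1) {s t : ℝ} (hs : 0 < s) (ht : 0 < t)
    (h : s + t ≤ ‖s • u + t • v‖) : ‖u + v‖ = 2 := by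
  refine le_antisymm ((norm_add_le _ _).trans (by rw [hu, hv]; norm_num)) ?_
  rcases le_total s t with h1 | h1
  · have := norm_add_le (s • (u + v)) ((t - s) • v)
    rw [show s • (u + v) + (t - s) • v = s • u + t • v by module, norm_smul, norm_smul, hv,
      Real.norm_of_nonneg hs.le, Real.norm_of_nonneg (by linarith)] at this
    nlinarith
  · have := norm_add_le (t • (u + v)) ((s - t) • u)
    rw [show t • (u + v) + (s - t) • u = s • u + t • v by module, norm_smul, norm_smul, hu,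
      Real.norm_of_nonneg ht.le, Real.norm_of_nonneg (by linarith)] at this
    nlinarith

theorem al_of_mid {u v w : X} (hu : ‖u‖ = 1) (hv : ‖v‖ = 1) (hw : ‖w‖ = 1)
    (h : ‖w + ((2⁻¹ : ℝ) • u + (2⁻¹ : ℝ) • v)‖ = 2) : ‖w + u‖ = 2 := by
  refine le_antisymm ((norm_add_le _ _).trans (by rw [hu, hw]; norm_num)) ?_
  have h1 := norm_add_le (w + u) (w + v)
  have h2 := norm_add_le w v
  rw [show w + u + (w + v) = (2 : ℝ) • (w + ((2⁻¹ : ℝ) • u + (2⁻¹ : ℝ) • v)) by module, norm_smul,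
    h, Real.norm_two] at h1
  linarith

theorem transfer {u v : X} {u' v' : Y} (hu : ‖u‖ = 1) (hv : ‖v‖ = 1) (hu' : ‖u'‖ = 1)
    (hv' : ‖v'‖ = 1) {a b a' b' D : ℝ} (ha : 0 < a) (hb : 0 < b) (ha' : 0 < a') (hb' : 0 < b')
    (e : ‖a • u + b • v‖ = ‖a' • u' + b' • v'‖) (h : ‖u + v‖ = 2) (h1 : a = a' + D)
    (h2 : b' ≤ b + D) : b' = b + D ∧ ‖u' + v'‖ = 2 := by
  rw [norm_combo hu hv h ha.le hb.le] at e
  have h3 : ‖a' • u' + b' • v'‖ ≤ a' + b' :=
    (norm_add_le _ _).trans (by simp [norm_smul, hu', hv', abs_of_pos, ha', hb'])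
  exact ⟨by linarith, al_of_combo hu' hv' ha' hb' (by linarith)⟩

theorem exists_chord {p : X} (hp : ‖p‖ < 1) (u : X) (hu : ‖u‖ = 1) :
    ∃ t : ℝ, 0 < t ∧ ‖p + t • u‖ = 1 := by
  have hc : Continuous fun t : ℝ => ‖p + t • u‖ := by fun_prop
  have h2 : 1 ≤ ‖p + (2 : ℝ) • u‖ := by
    have := norm_sub_le (p + (2 : ℝ) • u) p
    rw [add_sub_cancel_left, norm_smul, hu, Real.norm_two] at this
    linarith
  obtain ⟨t, ht, h⟩ := intermediate_value_Icc (show (0 : ℝ) ≤ 2 by norm_num) hc.continuousOn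
    (show (1 : ℝ) ∈ Icc _ _ from ⟨by simpa using hp.le, h2⟩)
  refine ⟨t, lt_of_le_of_ne ht.1 ?_, h⟩
  rintro rfl
  simp at h
  linarith

theorem chord_le {p u : X} (hp : ‖p‖ ≤ 1) (hu : ‖u‖ = 1) {t : ℝ} (ht : 0 < t)
    (h : ‖p + t • u‖ = 1) : t ≤ 2 := by
  have := norm_sub_le (p + t • u) p
  rw [add_sub_cancel_left, norm_smul, hu, Real.norm_of_nonneg ht.le] at this
  linarith

theorem chord_lip {p u v : X} (hp : ‖p‖ < 1) (hu : ‖u‖ = 1) (hv : ‖v‖ = 1) {s t : ℝ} (hs : 0 < s)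
    (ht : 0 < t) (h : ‖p + s • u‖ = 1) (h' : ‖p + t • v‖ = 1) :
    |s - t| ≤ 4 / (1 - ‖p‖) * ‖u - v‖ := by
  wlog hst : t ≤ s generalizing u v s t
  · rw [abs_sub_comm, norm_sub_rev]; exact this hv hu ht hs h' h (by linarith)
  have h1 := norm_add_le ((s - t) • p) (t • (p + s • u))
  rw [show (s - t) • p + t • (p + s • u) = s • (p + t • u) by module, norm_smul, norm_smul,
    norm_smul, h, Real.norm_of_nonneg hs.le, Real.norm_of_nonneg ht.le,
    Real.norm_of_nonneg (by linarith)] at h1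
  have h2 := norm_sub_le (p + t • u) (t • (u - v))
  rw [show p + t • u - t • (u - v) = p + t • v by module, h', norm_smul,
    Real.norm_of_nonneg ht.le] at h2
  have h3 := chord_le hp.le hu hs h
  have h4 := chord_le hp.le hv ht h'
  rw [abs_of_nonneg (by linarith), div_mul_eq_mul_div, le_div_iff₀ (by linarith)]
  have h5 := mul_le_mul_of_nonneg_left h2 hs.le
  have h6 : s * t ≤ 4 := by nlinarith
  nlinarith [norm_nonneg (u - v)]

theorem dir_le {u v : X} {u' v' : Y} (hv : ‖v‖ = 1) (hv' : ‖v'‖ = 1) {s t s' t' : ℝ} (hs : 0 ≤ s)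
    (hs' : 0 ≤ s') (e : ‖s • u - t • v‖ = ‖s' • u' - t' • v'‖) :
    s * ‖u - v‖ ≤ s' * ‖u' - v'‖ + |s - t| + |s' - t'| := by
  have h1 := norm_sub_le (s • u - t • v) ((s - t) • v)
  have h2 := norm_add_le (s' • (u' - v')) ((s' - t') • v')
  rw [show s • u - t • v - (s - t) • v = s • (u - v) by module, norm_smul, norm_smul, hv,
    Real.norm_of_nonneg hs, Real.norm_eq_abs] at h1
  rw [show s' • (u' - v') + (s' - t') • v' = s' • u' - t' • v' by module, norm_smul, norm_smul, hv',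
    Real.norm_of_nonneg hs', Real.norm_eq_abs] at h2
  linarith

/-- Limit of the plane sections of the norm. -/
noncomputable def sec (u : ℕ → X) (y : X) (r t : ℝ) : ℝ := ul fun n => ‖r • u n + t • y‖

theorem tendsto_sec {u : ℕ → X} (hu : ∀ n, ‖u n‖ = 1) (y : X) (r t : ℝ) :
    Tendsto (fun n => ‖r • u n + t • y‖) (hyperfilter ℕ) (𝓝 (sec u y r t)) :=
  tendsto_ul (C := |r| + ‖t • y‖) fun n => by
    rw [abs_norm]; exact (norm_add_le _ _).trans (by simp [norm_smul, hu])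

theorem sec_PN {u : ℕ → X} (hu : ∀ n, ‖u n‖ = 1) {y : X} (hy : ‖y‖ = 1) : PN (sec u y) where
  add r t r' t' := le_of_tendsto_of_tendsto' (tendsto_sec hu y _ _)
    ((tendsto_sec hu y r t).add (tendsto_sec hu y r' t')) fun n =>
      le_trans (le_of_eq (by congr 1; module)) (norm_add_le _ _)
  smul k r t hk := tendsto_nhds_unique (tendsto_sec hu y _ _)
    (((tendsto_sec hu y r t).const_mul k).congr fun n => by
      rw [← Real.norm_of_nonneg hk, ← norm_smul, Real.norm_of_nonneg hk]; congr 1; module)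
  fst := tendsto_nhds_unique (tendsto_sec hu y _ _) (by simp [hu])
  pos := tendsto_nhds_unique (tendsto_sec hu y _ _) (by simp [hy])
  neg := tendsto_nhds_unique (tendsto_sec hu y _ _) (by simp [hy])

theorem tendsto_sec' {u w : ℕ → X} (hu : ∀ n, ‖u n‖ = 1) (hw : ∀ n, ‖w n‖ = 1)
    (huw : Tendsto (fun n => ‖w n - u n‖) (hyperfilter ℕ) (𝓝 0)) (y : X) {r : ℕ → ℝ} {r₀ : ℝ}
    (hr : Tendsto r (hyperfilter ℕ) (𝓝 r₀)) (t : ℝ) :
    Tendsto (fun n => ‖r n • w n + t • y‖) (hyperfilter ℕ) (𝓝 (sec u y r₀ t)) := by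
  refine (tendsto_sec hu y r₀ t).congr_dist (squeeze_zero (fun _ => dist_nonneg)
    (g := fun n => |r n - r₀| + |r₀| * ‖w n - u n‖) (fun n => ?_) ?_)
  · rw [dist_comm]
    refine (dist_norm_norm_le _ _).trans ?_
    rw [show r n • w n + t • y - (r₀ • u n + t • y) = (r n - r₀) • w n + r₀ • (w n - u n) by module]
    exact (norm_add_le _ _).trans (by simp [norm_smul, hw])
  · simpa using (hr.sub_const r₀).abs.add (huw.const_mul |r₀|)

/-- The properties of a radial extension with maximal defect `D`. -/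
structure Rad (F : X → Y) (D : ℝ) : Prop where
  surj : Function.Surjective F
  norm_map : ∀ x, ‖F x‖ = ‖x‖
  smul : ∀ (μ : ℝ) x, 0 ≤ μ → F (μ • x) = μ • F x
  lip : ∀ u w, |‖u - w‖ - ‖F u - F w‖| ≤ 2 * |‖u‖ - ‖w‖|
  bd : ∀ u w, |‖u - w‖ - ‖F u - F w‖| ≤ D * max ‖u‖ ‖w‖

theorem Rad.iso {F : X → Y} {D : ℝ} (h : Rad F D) {u w : X} (hu : ‖u‖ = 1) (hw : ‖w‖ = 1) :
    ‖u - w‖ = ‖F u - F w‖ := by
  have := h.lip u w
  rw [hu, hw, sub_self, abs_zero, mul_zero, abs_nonpos_iff] at this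
  linarith

theorem Rad.le {F : X → Y} {D : ℝ} (h : Rad F D) {u w : X} (hu : ‖u‖ = 1) (hw : ‖w‖ ≤ 1) :
    |‖u - w‖ - ‖F u - F w‖| ≤ D := by
  simpa [hu, hw] using h.bd u w

theorem Rad.aligned {F : X → Y} {D l : ℝ} (h : Rad F D) (hD : 0 < D) {y : X} (hy : ‖y‖ = 1)
    (hl : 0 < l) (hl1 : l < 1) (u : ℕ → X) (u' v' : ℕ → Y) (a' b : ℕ → ℝ) (hu : ∀ n, ‖u n‖ = 1)
    (hu' : ∀ n, ‖u' n‖ = 1) (hv' : ∀ n, ‖v' n‖ = 1)
    (ha : ∀ n, a' n ∈ Icc (1 - l) 2) (hb : ∀ n, b n ∈ Icc (1 - l) 2)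
    (hx : ∀ n, ‖(a' n + D) • u n + l • y‖ = 1)
    (hx' : ∀ n, F ((a' n + D) • u n + l • y) = a' n • u' n + l • F y)
    (hz : ∀ n, ‖l • y - b n • u n‖ = 1)
    (hz' : ∀ n, F (l • y - b n • u n) = l • F y - (b n + D) • v' n)
    (hlim : Tendsto (fun n => ‖v' n - u' n‖) (hyperfilter ℕ) (𝓝 0)) : False := by
  have ta := tendsto_ul (f := a') (C := 2) fun n => abs_le.2 ⟨by linarith [(ha n).1], (ha n).2⟩
  have tb := tendsto_ul (f := b) (C := 2) fun n => abs_le.2 ⟨by linarith [(hb n).1], (hb n).2⟩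
  have t1 := tendsto_sec' hu hu (by simp) y (ta.add_const D)
  have t2 := tendsto_sec' hu' hu' (by simp) (F y) ta
  have t3 := tendsto_sec' hu hu (by simp) y tb
  have t4 := tendsto_sec' hu' hv' hlim (F y) (tb.add_const D)
  have e1 : ∀ n s, s ≤ l → ‖(a' n + D) • u n + l • y - (l - s) • y‖ = ‖(a' n + D) • u n + s • y‖ ∧
      ‖F ((a' n + D) • u n + l • y) - F ((l - s) • y)‖ = ‖a' n • u' n + s • F y‖ := fun n s hs =>
    ⟨by congr 1; module, by rw [hx', h.smul _ _ (by linarith)]; congr 1; module⟩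
  have e2 : ∀ n s, s ≤ l → ‖l • y - b n • u n - (l - s) • y‖ = ‖b n • u n + (-s) • y‖ ∧
      ‖F (l • y - b n • u n) - F ((l - s) • y)‖ = ‖(b n + D) • v' n + (-s) • F y‖ := fun n s hs =>
    ⟨by rw [← norm_neg]; congr 1; module, by
      rw [hz', h.smul _ _ (by linarith), ← norm_neg]; congr 1; module⟩
  have e3 : ∀ s, -(1 - l) ≤ s → s ≤ l → ‖(l - s) • y‖ ≤ 1 := fun s h1 h2 => by
    rw [norm_smul, hy, Real.norm_of_nonneg (by linarith)]; linarith
  have e4 : ‖(l - -(1 - l)) • y‖ = 1 := by simp [hy]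
  refine Chords.false (N := sec u y) (N' := sec u' (F y)) (l := l) (c := 1 - l) (a := ul a' + D)
    (b := ul b) (a' := ul a') (b' := ul b + D) (D := D) ⟨sec_PN hu hy,
      sec_PN hu' (by rw [h.norm_map, hy]), hl, by linarith, by ring,
      lt_of_lt_of_le (by linarith) (ge_of_tendsto' ta fun n => (ha n).1),
      lt_of_lt_of_le (by linarith) (ge_of_tendsto' tb fun n => (hb n).1), hD, rfl, rfl,
      fun s h1 h2 => le_of_tendsto_of_tendsto' (t1 s) ((t2 s).add_const D) fun n => ?_,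
      tendsto_nhds_unique (t1 l) (by simp [hx]),
      tendsto_nhds_unique (t2 l) (by simp [← hx', h.norm_map, hx]),
      tendsto_nhds_unique (t1 _) ((t2 _).congr fun n => ?_),
      fun s h1 h2 => le_of_tendsto_of_tendsto' (t4 _) ((t3 _).add_const D) fun n => ?_,
      tendsto_nhds_unique (t4 _) (tendsto_const_nhds.congr fun n => ?_),
      tendsto_nhds_unique (t3 _) (tendsto_const_nhds.congr fun n => ?_),
      tendsto_nhds_unique (t4 _) ((t3 _).congr fun n => ?_)⟩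
  · have := h.le (hx n) (e3 s h1 h2)
    rw [(e1 n s h2).1, (e1 n s h2).2] at this
    linarith [(abs_le.1 this).2]
  · rw [← (e1 n _ (by linarith)).1, ← (e1 n _ (by linarith)).2, h.iso (hx n) e4]
  · have := h.le (hz n) (e3 s h1 h2)
    rw [(e2 n s h2).1, (e2 n s h2).2] at this
    linarith [(abs_le.1 this).1]
  · rw [← hz n, ← h.norm_map, hz', ← norm_neg]; congr 1; module
  · rw [← hz n, ← norm_neg]; congr 1; module
  · have := e2 n (-(1 - l)) (by linarith)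
    rw [neg_neg] at this
    rw [← this.1, ← this.2, h.iso (hz n) e4]

theorem dir_spec {w : X} (hw : 0 < ‖w‖) : ‖‖w‖⁻¹ • w‖ = 1 ∧ ‖w‖ • ‖w‖⁻¹ • w = w :=
  ⟨by rw [norm_smul, norm_inv, norm_norm, inv_mul_cancel₀ hw.ne'],
    by rw [smul_smul, mul_inv_cancel₀ hw.ne', one_smul]⟩

theorem Rad.core {F : X → Y} {D : ℝ} (h : Rad F D) (hD : 0 < D) {x₀ p : X} (hx₀ : ‖x₀‖ = 1)
    (hp : ‖p‖ ≤ 1) (hext : |‖x₀ - p‖ - ‖F x₀ - F p‖| = D) : False := by
  have hp1 : ‖p‖ < 1 := lt_of_le_of_ne hp fun h1 => by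
    rw [h.iso hx₀ h1] at hext; simp at hext; linarith
  have hp0 : 0 < ‖p‖ := lt_of_le_of_ne (norm_nonneg _) fun h1 => by
    have e1 := abs_norm_sub_norm_le (x₀ - p) x₀
    have e2 := abs_norm_sub_norm_le (F x₀ - F p) (F x₀)
    rw [sub_sub_cancel_left, norm_neg, ← h1, abs_nonpos_iff] at e1
    rw [sub_sub_cancel_left, norm_neg, h.norm_map p, ← h1, abs_nonpos_iff, h.norm_map] at e2
    rw [show ‖x₀ - p‖ - ‖F x₀ - F p‖ = 0 by linarith, abs_zero] at hext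
    linarith
  have hq1 : ‖F p‖ < 1 := by rwa [h.norm_map]
  have hD2 : D ≤ 2 := by
    have := h.lip x₀ p
    rw [hext, hx₀, abs_of_nonneg (by linarith)] at this
    linarith
  set c := 1 - ‖p‖ with hc
  have hc0 : 0 < c := by linarith
  choose! a' ha0 ha1 using exists_chord hq1
  choose! b hb0 hb1 using fun v (hv : ‖v‖ = 1) => exists_chord hp1 (-v) (by rwa [norm_neg])
  choose g hg using h.surj
  set xx : Y → X := fun u' => g (F p + a' u' • u') with hxx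
  set zz : X → X := fun v => p + b v • -v with hzz
  set aa : Y → ℝ := fun u' => ‖xx u' - p‖ with haa
  set bb : X → ℝ := fun v => ‖F p - F (zz v)‖ with hbb
  set α : Y → X := fun u' => (aa u')⁻¹ • (xx u' - p) with hα
  set β : X → Y := fun v => (bb v)⁻¹ • (F p - F (zz v)) with hβ
  have x1 : ∀ u', ‖u'‖ = 1 → ‖xx u'‖ = 1 := fun u' hu' => by rw [← h.norm_map, hg, ha1 u' hu']
  have a1 : ∀ u', ‖u'‖ = 1 → c ≤ aa u' := fun u' hu' => by
    have := norm_sub_norm_le (xx u') p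
    rwa [x1 u' hu'] at this
  have a2 : ∀ u', ‖u'‖ = 1 → aa u' ≤ 2 := fun u' hu' => by
    have := norm_sub_le (xx u') p
    rw [x1 u' hu'] at this
    exact this.trans (by linarith)
  have b1 : ∀ v, ‖v‖ = 1 → c ≤ bb v := fun v hv => by
    have := norm_sub_norm_le (F (zz v)) (F p)
    rwa [h.norm_map, h.norm_map, hb1 v hv, norm_sub_rev] at this
  have α1 : ∀ u', ‖u'‖ = 1 → ‖α u'‖ = 1 ∧ aa u' • α u' = xx u' - p := fun u' hu' =>
    dir_spec (hc0.trans_le (a1 u' hu'))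
  have β1 : ∀ v, ‖v‖ = 1 → ‖β v‖ = 1 ∧ bb v • β v = F p - F (zz v) := fun v hv =>
    dir_spec (hc0.trans_le (b1 v hv))
  have n1 : ∀ u', ‖u'‖ = 1 → ‖F (xx u') - F p‖ = a' u' := fun u' hu' => by
    rw [hg, add_sub_cancel_left, norm_smul, hu', mul_one, Real.norm_of_nonneg (ha0 u' hu').le]
  have n2 : ∀ v, ‖v‖ = 1 → ‖zz v - p‖ = b v := fun v hv => by
    rw [hzz]
    simp only
    rw [add_sub_cancel_left, norm_smul, norm_neg, hv, mul_one, Real.norm_of_nonneg (hb0 v hv).le]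
  have a3 : ∀ u', ‖u'‖ = 1 → aa u' ≤ a' u' + D := fun u' hu' => by
    have := (abs_le.1 (h.le (x1 u' hu') hp)).2
    rw [n1 u' hu'] at this
    linarith
  have b3 : ∀ v, ‖v‖ = 1 → bb v ≤ b v + D := fun v hv => by
    have := (abs_le.1 (h.le (hb1 v hv) hp)).1
    rw [n2 v hv, norm_sub_rev (F _)] at this
    linarith
  have key : ∀ u' v, ‖u'‖ = 1 → ‖v‖ = 1 →
      ‖aa u' • α u' + b v • v‖ = ‖a' u' • u' + bb v • β v‖ := fun u' v hu' hv => by
    have := h.iso (x1 u' hu') (hb1 v hv)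
    rw [(α1 u' hu').2, (β1 v hv).2, hg] at *
    convert this using 2
    · module
    · simp only [hzz]; module
  have T1 : ∀ u' v, ‖u'‖ = 1 → ‖v‖ = 1 → aa u' = a' u' + D → ‖α u' + v‖ = 2 →
      bb v = b v + D ∧ ‖u' + β v‖ = 2 := fun u' v hu' hv h1 h2 =>
    transfer (α1 u' hu').1 hv hu' (β1 v hv).1 (hc0.trans_le (a1 u' hu')) (hb0 v hv) (ha0 u' hu')
      (hc0.trans_le (b1 v hv)) (key u' v hu' hv) h2 h1 (b3 v hv)
  have T2 : ∀ u' v, ‖u'‖ = 1 → ‖v‖ = 1 → bb v = b v + D → ‖β v + u'‖ = 2 →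
      aa u' = a' u' + D ∧ ‖v + α u'‖ = 2 := fun u' v hu' hv h1 h2 =>
    transfer (β1 v hv).1 hu' hv (α1 u' hu').1 (hc0.trans_le (b1 v hv)) (ha0 u' hu') (hb0 v hv)
      (hc0.trans_le (a1 u' hu')) (by rw [add_comm, ← key u' v hu' hv, add_comm]) h2 h1 (a3 u' hu')
  have self : ∀ v : X, ‖v‖ = 1 → ‖v + v‖ = 2 := fun v hv => by
    rw [← two_smul ℝ, norm_smul, hv, Real.norm_two, mul_one]
  obtain ⟨v₀, hv₀, hQ⟩ : ∃ v, ‖v‖ = 1 ∧ bb v = b v + D := by
    rcases eq_or_eq_neg_of_abs_eq hext with h1 | h1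
    · have h2 : 0 < ‖F x₀ - F p‖ := by
        have := norm_sub_norm_le (F x₀) (F p)
        rw [h.norm_map, hx₀] at this
        linarith
      obtain ⟨h3, h4⟩ := dir_spec h2
      set u' := ‖F x₀ - F p‖⁻¹ • (F x₀ - F p)
      have h5 := chord_lip hq1 h3 h3 (ha0 _ h3) h2 (ha1 _ h3) (by rw [h4]; simp [h.norm_map, hx₀])
      rw [sub_self, norm_zero, mul_zero, abs_nonpos_iff, sub_eq_zero] at h5
      have h6 := h.iso (x1 _ h3) hx₀
      rw [hg, h5, h4, add_sub_cancel, sub_self, norm_zero] at h6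
      have h7 := abs_norm_sub_norm_le (xx u' - p) (x₀ - p)
      rw [sub_sub_sub_cancel_right, h6, abs_nonpos_iff] at h7
      exact ⟨_, (α1 _ h3).1, (T1 _ _ h3 (α1 _ h3).1 (by rw [h5]; simp only [haa]; linarith)
        (self _ (α1 _ h3).1)).1⟩
    · have h2 : 0 < ‖p - x₀‖ := by
        have := norm_sub_norm_le x₀ p
        rw [hx₀, norm_sub_rev] at this
        linarith
      obtain ⟨h3, h4⟩ := dir_spec h2
      set v := ‖p - x₀‖⁻¹ • (p - x₀)
      have h5 := chord_lip hp1 (u := -v) (v := -v) (by simpa using h3) (by simpa using h3)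
        (hb0 _ h3) h2 (hb1 _ h3) (by rw [smul_neg, h4]; simp [hx₀])
      rw [sub_self, norm_zero, mul_zero, abs_nonpos_iff, sub_eq_zero] at h5
      refine ⟨v, h3, ?_⟩
      simp only [hbb, hzz]
      rw [h5, smul_neg, h4, neg_sub, add_sub_cancel, norm_sub_rev p, norm_sub_rev (F p)]
      linarith
  obtain ⟨G, hG0, hG⟩ := zorn_subset_nonempty {T : Set Y | Convex ℝ T ∧ ∀ u ∈ T, ‖u‖ = 1}
    (fun C hC hC' _ => ⟨⋃₀ C, ⟨hC'.directedOn.convex_sUnion fun T hT => (hC hT).1,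
      fun u ⟨T, hT, hu⟩ => (hC hT).2 u hu⟩, fun _ => subset_sUnion_of_mem⟩) {β v₀}
    ⟨convex_singleton _, by simpa using (β1 v₀ hv₀).1⟩
  have G1 := hG.prop.2
  have Gm : ∀ u ∈ G, ∀ v ∈ G, (2⁻¹ : ℝ) • u + (2⁻¹ : ℝ) • v ∈ G := fun u hu v hv =>
    hG.prop.1 hu hv (by norm_num) (by norm_num) (by norm_num)
  have GP : ∀ u' ∈ G, aa u' = a' u' + D := fun u' hu' =>
    (T2 u' v₀ (G1 _ hu') hv₀ hQ (al_of_combo (β1 v₀ hv₀).1 (G1 _ hu') (s := 2⁻¹) (t := 2⁻¹)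
      (by norm_num) (by norm_num) (by rw [G1 _ (Gm _ (hG0 rfl) _ hu')]; norm_num))).1
  have Gα : ∀ u₁ ∈ G, ∀ u₂ ∈ G, ‖α u₁ + α u₂‖ = 2 := fun u₁ h₁ u₂ h₂ => by
    have hm := Gm _ h₁ _ h₂
    set m := (2⁻¹ : ℝ) • u₁ + (2⁻¹ : ℝ) • u₂ with hm'
    have St : ∀ v, ‖v‖ = 1 → ‖α m + v‖ = 2 → ‖v + α u₁‖ = 2 ∧ ‖v + α u₂‖ = 2 := fun v hv e => by
      obtain ⟨e1, e2⟩ := T1 m v (G1 _ hm) hv (GP _ hm) e
      rw [add_comm] at e2
      exact ⟨(T2 _ v (G1 _ h₁) hv e1 (al_of_mid (G1 _ h₁) (G1 _ h₂) (β1 v hv).1 e2)).2,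
        (T2 _ v (G1 _ h₂) hv e1 (al_of_mid (G1 _ h₂) (G1 _ h₁) (β1 v hv).1
          (by rwa [add_comm ((2⁻¹ : ℝ) • u₂)]))).2⟩
    have hm1 := (α1 m (G1 _ hm)).1
    have h11 := (α1 _ (G1 _ h₁)).1
    have e1 := (St _ hm1 (self _ hm1)).1
    have e2 := (St ((2⁻¹ : ℝ) • α u₁ + (2⁻¹ : ℝ) • α m) (by
      rw [add_comm, norm_combo hm1 h11 e1 (by norm_num) (by norm_num)]; norm_num) (by
      rw [show α m + ((2⁻¹ : ℝ) • α u₁ + (2⁻¹ : ℝ) • α m) = (3 / 2 : ℝ) • α m + (2⁻¹ : ℝ) • α u₁ by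
        module, norm_combo hm1 h11 e1 (by norm_num) (by norm_num)]; norm_num)).2
    rw [add_comm] at e2 ⊢
    exact al_of_mid h11 hm1 (α1 _ (G1 _ h₂)).1 e2
  have GT : ∀ u₁ ∈ G, ∀ u₂ ∈ G, bb (α u₂) = b (α u₂) + D ∧ ‖u₁ + β (α u₂)‖ = 2 :=
    fun u₁ h₁ u₂ h₂ => T1 _ _ (G1 _ h₁) (α1 _ (G1 _ h₂)).1 (GP _ h₁) (Gα _ h₁ _ h₂)
  have GΦ : MapsTo (fun u' => β (α u')) G G := fun u' hu' => by
    refine hG.le_of_ge (y := convexHull ℝ (insert (β (α u')) G)) ⟨convex_convexHull _ _, ?_⟩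
      ((subset_insert _ _).trans (subset_convexHull _ _)) (subset_convexHull _ _ (mem_insert _ _))
    rw [convexHull_insert ⟨_, hu'⟩, hG.prop.1.convexHull_eq]
    intro w hw
    obtain ⟨_, rfl, u₁, h₁, s, t, hs, ht, hst, rfl⟩ := mem_convexJoin.1 hw
    rw [add_comm, norm_combo (G1 _ h₁) (β1 _ (α1 _ (G1 _ hu')).1).1 (GT _ h₁ _ hu').2 ht hs]
    linarith
  have La : ∀ u ∈ G, ∀ v ∈ G, |a' u - a' v| ≤ 4 / c * ‖u - v‖ := fun u hu v hv => by
    have := chord_lip hq1 (G1 _ hu) (G1 _ hv) (ha0 _ (G1 _ hu)) (ha0 _ (G1 _ hv)) (ha1 _ (G1 _ hu))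
      (ha1 _ (G1 _ hv))
    rwa [h.norm_map] at this
  have Lb : ∀ u v, ‖u‖ = 1 → ‖v‖ = 1 → |b u - b v| ≤ 4 / c * ‖u - v‖ := fun u v hu hv => by
    have := chord_lip hp1 (u := -u) (v := -v) (by simpa using hu) (by simpa using hv) (hb0 _ hu)
      (hb0 _ hv) (hb1 _ hu) (hb1 _ hv)
    rwa [neg_sub_neg, norm_sub_rev] at this
  have Cα : ∀ u ∈ G, ∀ v ∈ G, ‖α u - α v‖ ≤ (1 - D / 2) * ‖u - v‖ + 2 / c * |a' u - a' v| :=
    fun u hu v hv => by
    have e1 := dir_le (u := α u) (u' := u) (α1 _ (G1 _ hv)).1 (G1 _ hv) (s := aa u) (t := aa v)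
      (t' := a' v) (norm_nonneg _) (ha0 _ (G1 _ hu)).le (by
        rw [(α1 _ (G1 _ hu)).2, (α1 _ (G1 _ hv)).2, sub_sub_sub_cancel_right,
          h.iso (x1 _ (G1 _ hu)) (x1 _ (G1 _ hv)), hg, hg, add_sub_add_left_eq_sub])
    rw [GP u hu, GP v hv, add_sub_add_right_eq_sub, ← GP u hu] at e1
    have e2 := a1 _ (G1 _ hu)
    have e3 := a2 _ (G1 _ hu)
    have e4 : 2 * |a' u - a' v| ≤ aa u * (2 / c * |a' u - a' v|) := by
      rw [← mul_assoc]
      refine mul_le_mul_of_nonneg_right ?_ (abs_nonneg _)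
      rw [mul_div_assoc', le_div_iff₀ hc0]; linarith
    have e5 : a' u * ‖u - v‖ ≤ aa u * (1 - D / 2) * ‖u - v‖ :=
      mul_le_mul_of_nonneg_right (by nlinarith [GP u hu]) (norm_nonneg _)
    refine le_of_mul_le_mul_left ?_ (hc0.trans_le e2)
    linarith
  have Cβ : ∀ u ∈ G, ∀ v ∈ G, ‖β (α u) - β (α v)‖ ≤
      ‖α u - α v‖ + 2 / c * |b (α u) - b (α v)| := fun u hu v hv => by
    have hu1 := (α1 _ (G1 _ hu)).1
    have hv1 := (α1 _ (G1 _ hv)).1
    have e1 := dir_le (u := β (α u)) (u' := α u) (β1 _ hv1).1 hv1 (s := bb (α u)) (t := bb (α v))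
      (t' := b (α v)) (norm_nonneg _) (hb0 _ hu1).le (by
        rw [(β1 _ hu1).2, (β1 _ hv1).2, sub_sub_sub_cancel_left, ← h.iso (hb1 _ hv1) (hb1 _ hu1)]
        congr 1; module)
    rw [(GT u hu u hu).1, (GT v hv v hv).1, add_sub_add_right_eq_sub, ← (GT u hu u hu).1] at e1
    have e2 := b1 _ hu1
    have e4 : 2 * |b (α u) - b (α v)| ≤ bb (α u) * (2 / c * |b (α u) - b (α v)|) := by
      rw [← mul_assoc]
      refine mul_le_mul_of_nonneg_right ?_ (abs_nonneg _)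
      rw [mul_div_assoc', le_div_iff₀ hc0]; linarith
    have e5 : b (α u) * ‖α u - α v‖ ≤ bb (α u) * ‖α u - α v‖ :=
      mul_le_mul_of_nonneg_right (by linarith [(GT u hu u hu).1]) (norm_nonneg _)
    refine le_of_mul_le_mul_left ?_ (hc0.trans_le e2)
    linarith
  have a4 : ∀ u ∈ G, a' u ∈ Icc c 2 := fun u hu => ⟨by
    have := norm_sub_norm_le (F (xx u)) (F p)
    rwa [n1 _ (G1 _ hu), h.norm_map, h.norm_map, x1 _ (G1 _ hu)] at this,
    chord_le hq1.le (G1 _ hu) (ha0 _ (G1 _ hu)) (ha1 _ (G1 _ hu))⟩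
  have b4 : ∀ v, ‖v‖ = 1 → b v ∈ Icc c 2 := fun v hv => ⟨by
    have := norm_sub_norm_le (zz v) p
    rwa [n2 _ hv, hb1 _ hv] at this,
    chord_le hp (by simpa using hv) (hb0 _ hv) (hb1 _ hv)⟩
  have fix := fun n : ℕ => approx_fixed hG.prop.1 ⟨_, hG0 rfl⟩ (fun u hu => (G1 u hu).le) GΦ
    (L := (1 + 2 / c * (4 / c)) * (1 + 2 / c * (4 / c))) (γ := 1 - D / 2) (M := 2 / c)
    (by positivity) (by linarith) (by linarith) (by positivity) (fun u hu v hv => ?_)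
    (π₁ := a') (π₂ := fun u => b (α u)) (fun u hu => ⟨hc0.le.trans (a4 u hu).1, (a4 u hu).2⟩)
    (fun u hu => ⟨hc0.le.trans (b4 _ (α1 _ (G1 _ hu)).1).1, (b4 _ (α1 _ (G1 _ hu)).1).2⟩)
    (fun u hu v hv => by linarith [Cα u hu v hv, Cβ u hu v hv])
    (show 0 < 1 / ((n : ℝ) + 1) by positivity)
  · choose u' hu' hfix using fix
    obtain ⟨hy1, hy2⟩ := dir_spec hp0
    have hq : F p = ‖p‖ • F (‖p‖⁻¹ • p) := by rw [← h.smul _ _ hp0.le, hy2]
    have ex : ∀ n, (a' (u' n) + D) • α (u' n) + p = xx (u' n) := fun n => by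
      rw [← GP _ (hu' n), (α1 _ (G1 _ (hu' n))).2, sub_add_cancel]
    have ez : ∀ n, p - b (α (u' n)) • α (u' n) = zz (α (u' n)) := fun n => by
      simp only [hzz]; module
    refine h.aligned hD hy1 hp0 hp1 (fun n => α (u' n)) u' (fun n => β (α (u' n)))
      (fun n => a' (u' n)) (fun n => b (α (u' n))) (fun n => (α1 _ (G1 _ (hu' n))).1)
      (fun n => G1 _ (hu' n)) (fun n => G1 _ (GΦ (hu' n))) (fun n => a4 _ (hu' n))
      (fun n => b4 _ (α1 _ (G1 _ (hu' n))).1) (fun n => ?_) (fun n => ?_) (fun n => ?_)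
      (fun n => ?_) (squeeze_zero (fun _ => norm_nonneg _) (fun n => (hfix n).le)
        (tendsto_one_div_add_atTop_nhds_zero_nat.mono_left Nat.hyperfilter_le_atTop))
    · rw [hy2, ex, x1 _ (G1 _ (hu' n))]
    · rw [hy2, ex, hg, ← hq, add_comm]
    · rw [hy2, ez, hb1 _ (α1 _ (G1 _ (hu' n))).1]
    · rw [hy2, ez, ← hq, ← (GT _ (hu' n) _ (hu' n)).1, (β1 _ (α1 _ (G1 _ (hu' n))).1).2,
        sub_sub_cancel]
  · have e1 := mul_le_mul_of_nonneg_left (La u hu v hv) (show 0 ≤ 2 / c by positivity)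
    have e2 := mul_le_mul_of_nonneg_left (Lb _ _ (α1 _ (G1 _ hu)).1 (α1 _ (G1 _ hv)).1)
      (show 0 ≤ 2 / c by positivity)
    have e3 : ‖α u - α v‖ ≤ (1 + 2 / c * (4 / c)) * ‖u - v‖ := by
      nlinarith [Cα u hu v hv, norm_nonneg (u - v)]
    have e4 := mul_le_mul_of_nonneg_left e3 (show 0 ≤ 1 + 2 / c * (4 / c) by positivity)
    linarith [Cβ u hu v hv]

end Vale.Agent.P084
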