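import Mathlib

/-!
The plane inequalities for two aligned chords.
-/

namespace Vale.Agent.P084

/-- A sublinear function on the plane, normalized on the coordinate vectors. -/
structure PN (N : ℝ → ℝ → ℝ) : Prop where
  add : ∀ r t r' t', N (r + r') (t + t') ≤ N r t + N r' t'
  smul : ∀ k r t, 0 ≤ k → N (k * r) (k * t) = k * N r t
  fst : N 1 0 = 1
  pos : N 0 1 = 1
  neg : N 0 (-1) = 1

theorem PN.flip {N : ℝ → ℝ → ℝ} (h : PN N) : PN fun r t => N r (-t) where
  add r t r' t' := by simpa [add_comm] using h.add r (-t) r' (-t')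
  smul k r t hk := by simpa using h.smul k r (-t) hk
  fst := by simpa using h.fst
  pos := h.neg
  neg := by simpa using h.pos

theorem PN.combo {N : ℝ → ℝ → ℝ} (h : PN N) {k k' : ℝ} (hk : 0 ≤ k) (hk' : 0 ≤ k')
    (r t r' t' : ℝ) : N (k * r + k' * r') (k * t + k' * t') ≤ k * N r t + k' * N r' t' := by
  rw [← h.smul k r t hk, ← h.smul k' r' t' hk']; exact h.add _ _ _ _

theorem PN.zero_pos {N : ℝ → ℝ → ℝ} (h : PN N) {t : ℝ} (ht : 0 ≤ t) : N 0 t = t := by
  simpa [h.pos] using h.smul t 0 1 ht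

/-- Slope bound extrapolated to the origin. -/
theorem PN.slope {N : ℝ → ℝ → ℝ} (h : PN N) {r₁ r₂ t σ : ℝ} (ht : 0 ≤ t) (h1 : 0 ≤ r₁)
    (h2 : r₁ < r₂) (hσ : N r₂ t ≤ N r₁ t + σ * (r₂ - r₁)) : N r₂ t ≤ t + σ * r₂ := by
  have h3 := h.combo h1 (sub_pos.2 h2).le r₂ t 0 t
  rw [show r₁ * r₂ + (r₂ - r₁) * 0 = r₂ * r₁ by ring, show r₁ * t + (r₂ - r₁) * t = r₂ * t by ring,
    h.smul _ _ _ (by linarith), h.zero_pos ht] at h3
  have h4 : r₂ * N r₂ t ≤ r₂ * (N r₁ t + σ * (r₂ - r₁)) :=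
    mul_le_mul_of_nonneg_left hσ (by linarith)
  refine le_of_mul_le_mul_left ?_ (sub_pos.2 h2)
  nlinarith

theorem PN.slope' {N : ℝ → ℝ → ℝ} (h : PN N) {r₀ r₂ t σ : ℝ} (ht : 0 ≤ t) (h1 : 0 ≤ r₀)
    (h2 : r₀ ≤ r₂) (h3 : 0 < r₂) (hσ : N r₂ t ≤ t + σ * r₂) : N r₀ t ≤ t + σ * r₀ := by
  have h4 := h.combo h1 (sub_nonneg.2 h2) r₂ t 0 t
  rw [show r₀ * r₂ + (r₂ - r₀) * 0 = r₂ * r₀ by ring, show r₀ * t + (r₂ - r₀) * t = r₂ * t by ring,
    h.smul _ _ _ h3.le, h.zero_pos ht] at h4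
  have h5 := mul_le_mul_of_nonneg_left hσ h1
  refine le_of_mul_le_mul_left ?_ h3
  nlinarith

theorem PN.mid {N : ℝ → ℝ → ℝ} (h : PN N) {r t t' k k' : ℝ} (hr : 0 ≤ r) (hk : 0 ≤ k)
    (hk' : 0 ≤ k') (e : k * t = k' * t') : (k + k') * r ≤ k * N r t + k' * N r (-t') := by
  have h1 := h.combo hk hk' r t r (-t')
  have h2 := h.smul ((k + k') * r) 1 0 (by positivity)
  rw [show k * r + k' * r = (k + k') * r * 1 by ring,
    show k * t + k' * -t' = (k + k') * r * 0 by linarith, h2, h.fst, mul_one] at h1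
  exact h1

/-- The data of two aligned extremal chords. -/
structure Chords (N N' : ℝ → ℝ → ℝ) (l c a b a' b' D : ℝ) : Prop where
  hN : PN N
  hN' : PN N'
  l_pos : 0 < l
  c_pos : 0 < c
  lc : l + c = 1
  a_pos : 0 < a'
  b_pos : 0 < b
  D_pos : 0 < D
  ea : a = a' + D
  eb : b' = b + D
  h1 : ∀ s, -c ≤ s → s ≤ l → N a s ≤ N' a' s + D
  h1l : N a l = 1
  h1l' : N' a' l = 1
  h1c : N a (-c) = N' a' (-c)
  h2 : ∀ s, -c ≤ s → s ≤ l → N' b' (-s) ≤ N b (-s) + D
  h2l : N' b' (-l) = 1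
  h2l' : N b (-l) = 1
  h2c : N' b' c = N b c

variable {N N' : ℝ → ℝ → ℝ} {l c a b a' b' D : ℝ}

theorem Chords.mirror (h : Chords N N' l c a b a' b' D) :
    Chords (fun r t => N' r (-t)) (fun r t => N r (-t)) l c b' a' b a D where
  hN := h.hN'.flip
  hN' := h.hN.flip
  l_pos := h.l_pos
  c_pos := h.c_pos
  lc := h.lc
  a_pos := h.b_pos
  b_pos := h.a_pos
  D_pos := h.D_pos
  ea := h.eb
  eb := h.ea
  h1 := h.h2
  h1l := h.h2l
  h1l' := h.h2l'
  h1c := by simpa using h.h2c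
  h2 := by simpa using h.h1
  h2l := by simpa using h.h1l
  h2l' := by simpa using h.h1l'
  h2c := h.h1c

theorem Chords.gap (h : Chords N N' l c a b a' b' D) : a * b' - b * a' = D * (a + b) := by
  rw [h.ea, h.eb]; ring

theorem Chords.pos (h : Chords N N' l c a b a' b' D) :
    0 < a ∧ 0 < b ∧ 0 < a' ∧ 0 < b' ∧ 0 < l ∧ 0 < c ∧ 0 < D :=
  ⟨by linarith [h.ea, h.a_pos, h.D_pos], h.b_pos, h.a_pos, by linarith [h.eb, h.b_pos, h.D_pos],
    h.l_pos, h.c_pos, h.D_pos⟩

/-- All four estimates are written at the scale `r₁ = b a'`, `r₂ = a b'`. -/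
theorem Chords.pc (h : Chords N N' l c a b a' b' D) (hC : c * a ≤ l * b) :
    N' (a * b') (a * c) ≤ a * c + b / (a + b) * (a * b') := by
  obtain ⟨ha, hb, ha', hb', hl, hc, hD⟩ := h.pos
  have e := h.h1 (a * c / b) (le_trans (by linarith) (by positivity : 0 ≤ a * c / b))
    (by rw [div_le_iff₀ hb]; linarith)
  have e1 := h.hN.smul b a (a * c / b) hb.le
  have e2 := h.hN'.smul b a' (a * c / b) hb.le
  rw [mul_div_cancel₀ _ hb.ne'] at e1 e2
  refine h.hN'.slope (r₁ := b * a') (by positivity) (by positivity)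
    (by nlinarith [h.gap, mul_pos hD (add_pos ha hb)]) ?_
  rw [h.gap, h.hN'.smul _ _ _ ha.le, h.h2c, ← h.hN.smul _ _ _ ha.le, mul_comm a b, e1, e2,
    show b / (a + b) * (D * (a + b)) = b * D by field_simp, ← mul_add]
  exact mul_le_mul_of_nonneg_left e hb.le

theorem Chords.pl0 (h : Chords N N' l c a b a' b' D) (hC : l * b ≤ c * a) :
    N' (a * b') (b * l) ≤ b + a * D := by
  obtain ⟨ha, hb, ha', hb', hl, hc, hD⟩ := h.pos
  have e := h.h2 (-(b * l / a)) (by rw [neg_le_neg_iff, div_le_iff₀ ha]; linarith)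
    (le_trans (by simp; positivity) hl.le)
  rw [neg_neg] at e
  have e1 := h.hN.smul a b (b * l / a) ha.le
  have e2 := h.hN'.smul a b' (b * l / a) ha.le
  rw [mul_div_cancel₀ _ ha.ne'] at e1 e2
  have e3 := h.hN.smul b a l hb.le
  rw [h.h1l, mul_one, mul_comm b a, e1] at e3
  rw [e2]
  nlinarith

theorem Chords.pl (h : Chords N N' l c a b a' b' D) (hC : l * b ≤ c * a) :
    N' (a * b') (b * l) ≤ b * l + a / (a + b) * (a * b') := by
  obtain ⟨ha, hb, ha', hb', hl, hc, hD⟩ := h.pos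
  refine h.hN'.slope (r₁ := b * a') (by positivity) (by positivity)
    (by nlinarith [h.gap, mul_pos hD (add_pos ha hb)]) ?_
  rw [h.gap, h.hN'.smul b a' l hb.le, h.h1l', mul_one,
    show a / (a + b) * (D * (a + b)) = a * D by field_simp]
  exact h.pl0 hC

theorem Chords.nc (h : Chords N N' l c a b a' b' D) (hC : c * b ≤ l * a) :
    N' (a * b') (-(b * c)) ≤ b * c + a / (a + b) * (a * b') := by
  obtain ⟨ha, hb, ha', hb', hl, hc, hD⟩ := h.pos
  have e := h.h2 (b * c / a) (le_trans (by linarith) (by positivity : 0 ≤ b * c / a))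
    (by rw [div_le_iff₀ ha]; linarith)
  have e1 := h.hN.smul a b (-(b * c / a)) ha.le
  have e2 := h.hN'.smul a b' (-(b * c / a)) ha.le
  rw [mul_neg, mul_div_cancel₀ _ ha.ne'] at e1 e2
  have e3 := h.hN.smul b a (-c) hb.le
  have e4 := h.hN'.smul b a' (-c) hb.le
  rw [mul_neg] at e3 e4
  refine h.hN'.flip.slope (r₁ := b * a') (by positivity) (by positivity)
    (by nlinarith [h.gap, mul_pos hD (add_pos ha hb)]) ?_
  rw [h.gap, e2, e4, ← h.h1c, ← e3, mul_comm b a, e1,
    show a / (a + b) * (D * (a + b)) = a * D by field_simp, ← mul_add]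
  exact mul_le_mul_of_nonneg_left e ha.le

theorem Chords.nl (h : Chords N N' l c a b a' b' D) (hC : l * a ≤ c * b) :
    N' (a * b') (-(a * l)) ≤ a * l + b / (a + b) * (a * b') := by
  obtain ⟨ha, hb, ha', hb', hl, hc, hD⟩ := h.pos
  have e := h.h1 (-(a * l / b)) (by rw [neg_le_neg_iff, div_le_iff₀ hb]; linarith)
    (le_trans (by simp; positivity) hl.le)
  have e1 := h.hN.smul b a (-(a * l / b)) hb.le
  have e2 := h.hN'.smul b a' (-(a * l / b)) hb.le
  rw [mul_neg, mul_div_cancel₀ _ hb.ne'] at e1 e2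
  have e3 := h.hN.smul a b (-l) ha.le
  have e4 := h.hN'.smul a b' (-l) ha.le
  rw [mul_neg] at e3 e4
  refine h.hN'.flip.slope (r₁ := b * a') (by positivity) (by positivity)
    (by nlinarith [h.gap, mul_pos hD (add_pos ha hb)]) ?_
  rw [h.gap, e2, e4, h.h2l, ← h.h2l', ← e3, mul_comm a b, e1,
    show b / (a + b) * (D * (a + b)) = b * D by field_simp, ← mul_add]
  exact mul_le_mul_of_nonneg_left e hb.le

theorem Chords.low (h : Chords N N' l c a b a' b' D) {k σ : ℝ} (hk : 0 < k) (hk' : k ≤ b)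
    (e : N' (a * b') (k * l) ≤ k * l + σ / (a + b) * (a * b')) : c * (a + b) ≤ σ * a' := by
  obtain ⟨ha, hb, ha', hb', hl, hc, hD⟩ := h.pos
  have e1 := h.hN'.slope' (r₀ := k * a') (by positivity) (by positivity)
    (by nlinarith [h.gap, mul_pos hD (add_pos ha hb)]) (by positivity) e
  rw [h.hN'.smul _ _ _ hk.le, h.h1l'] at e1
  have e2 : k * c ≤ k * (σ * a' / (a + b)) := by
    have : σ / (a + b) * (k * a') = k * (σ * a' / (a + b)) := by ring
    have hlc := h.lc
    nlinarith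
  exact (le_div_iff₀ (add_pos ha hb)).1 (le_of_mul_le_mul_left e2 hk)

theorem Chords.L2 (h : Chords N N' l c a b a' b' D) (hC : c * (a + b) ≤ b) :
    c * (a + b) ≤ b * a' := by
  obtain ⟨ha, hb, ha', hb', hl, hc, hD⟩ := h.pos
  have hlc := h.lc
  have hC' : c * a ≤ l * b := by nlinarith
  refine h.low (k := a * c / l) (by positivity) (by rw [div_le_iff₀ hl]; linarith) ?_
  rw [div_mul_cancel₀ _ hl.ne']
  exact h.pc hC'

theorem Chords.L3 (h : Chords N N' l c a b a' b' D) (hC : b ≤ c * (a + b)) :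
    c * (a + b) ≤ a * a' := by
  have hlc := h.lc
  have : l * b = b - c * b := by rw [show l = 1 - c by linarith]; ring
  exact h.low h.b_pos le_rfl (h.pl (by linarith))

theorem Chords.up (h : Chords N N' l c a b a' b' D) {k k' t t' : ℝ} (hk : 0 < k) (hk' : 0 < k')
    (hs : k + k' = a + b) (hp : k * k' = a * b) (e : k * t = k' * t')
    (e1 : N' (a * b') t ≤ t + k / (a + b) * (a * b'))
    (e2 : N' (a * b') (-t') ≤ t' + k' / (a + b) * (a * b')) :
    a * b * (a * b') ≤ k * t * (a + b) := by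
  obtain ⟨ha, hb, ha', hb', hl, hc, hD⟩ := h.pos
  have e3 := h.hN'.mid (r := a * b') (by positivity) hk.le hk'.le e
  have e4 := mul_le_mul_of_nonneg_left e1 hk.le
  have e5 := mul_le_mul_of_nonneg_left e2 hk'.le
  have e6 : (a + b) * (a * b') ≤ 2 * (k * t) + (k * k + k' * k') * (a * b') / (a + b) := by
    have : (k * k + k' * k') * (a * b') / (a + b) =
        k * (k / (a + b) * (a * b')) + k' * (k' / (a + b) * (a * b')) := by ring
    rw [hs] at e3
    linarith
  rw [← sub_le_iff_le_add', le_div_iff₀ (add_pos ha hb),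
    show k * k + k' * k' = (a + b) * (a + b) - 2 * (a * b) by rw [← hs, ← hp]; ring] at e6
  nlinarith

theorem Chords.U1 (h : Chords N N' l c a b a' b' D) (hC : c * (a + b) ≤ b)
    (hC' : c * (a + b) ≤ a) : a * b' ≤ c * (a + b) := by
  obtain ⟨ha, hb, ha', hb', hl, hc, hD⟩ := h.pos
  have hlc := h.lc
  have := h.up hb ha (add_comm _ _) (mul_comm _ _) (by ring) (h.pc (by nlinarith))
    (h.nc (by nlinarith))
  refine le_of_mul_le_mul_left ?_ (mul_pos ha hb)
  linarith

theorem Chords.U2 (h : Chords N N' l c a b a' b' D) (hC : b ≤ c * (a + b))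
    (hC' : a ≤ c * (a + b)) : a * b' ≤ l * (a + b) := by
  obtain ⟨ha, hb, ha', hb', hl, hc, hD⟩ := h.pos
  have hlc := h.lc
  have := h.up ha hb rfl rfl (by ring) (h.pl (by nlinarith)) (h.nl (by nlinarith))
  refine le_of_mul_le_mul_left ?_ (mul_pos ha hb)
  linarith

theorem Chords.U3 (h : Chords N N' l c a b a' b' D) (hC : b ≤ c * (a + b))
    (hC' : c * (a + b) ≤ a) : l * (a * b') ≤ c * (a + b) * (1 + l - a) := by
  obtain ⟨ha, hb, ha', hb', hl, hc, hD⟩ := h.pos
  have hlc := h.lc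
  have e1 := h.pl0 (by nlinarith)
  have e2 := h.nc (by nlinarith)
  have e3 := h.hN'.mid (r := a * b') (t := b * l) (t' := b * c) (by positivity) hc.le hl.le
    (by ring)
  have e4 := mul_le_mul_of_nonneg_left e1 hc.le
  have e5 := mul_le_mul_of_nonneg_left e2 hl.le
  have e6 : a * b' - c * (b + a * D) - l * (b * c) ≤ l * a * (a * b') / (a + b) := by
    have : l * a * (a * b') / (a + b) = l * (a / (a + b) * (a * b')) := by ring
    rw [add_comm c l, hlc] at e3
    linarith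
  rw [le_div_iff₀ (add_pos ha hb)] at e6
  refine le_of_mul_le_mul_left ?_ hb
  have e7 : c = 1 - l := by linarith
  have e8 : D = b' - b := by linarith [h.eb]
  rw [e7, e8] at e6
  rw [e7]
  nlinarith

theorem Chords.not_le (h : Chords N N' l c a b a' b' D) (hC : c * (a + b) ≤ a) : False := by
  obtain ⟨ha, hb, ha', hb', hl, hc, hD⟩ := h.pos
  have hg := h.gap
  have hea := h.ea
  have heb := h.eb
  have hs : b' + a' = a + b := by linarith
  have hD' := mul_pos hD (add_pos ha hb)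
  rcases le_or_gt (c * (a + b)) b with h1 | h1
  · linarith [h.L2 h1, h.U1 h1 hC]
  have h2 := h.U3 h1.le hC
  have key : 1 < a → a * b' < c * (a + b) := fun h3 => by
    refine lt_of_mul_lt_mul_left ?_ hl.le
    nlinarith [mul_pos hc (add_pos ha hb)]
  rcases le_or_gt (c * (a + b)) a' with h3 | h3
  · have h4 := h.mirror.L2 (by rwa [hs])
    rw [hs] at h4
    have h5 : 1 < a' := by nlinarith
    linarith [key (by linarith)]
  · have h4 := h.L3 h1.le
    have h5 := h.mirror.L3 (by rw [hs]; exact h3.le)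
    rw [hs] at h5
    have h6 : 1 < a := by nlinarith
    have h7 : 1 < b' := by nlinarith
    nlinarith [key h6]

theorem Chords.false (h : Chords N N' l c a b a' b' D) : False := by
  obtain ⟨ha, hb, ha', hb', hl, hc, hD⟩ := h.pos
  have hea := h.ea
  have heb := h.eb
  have hlc := h.lc
  have hs : b' + a' = a + b := by linarith
  rcases le_or_gt (c * (a + b)) a with h1 | h1
  · exact h.not_le h1
  rcases le_or_gt (c * (a + b)) b' with h2 | h2
  · exact h.mirror.not_le (by rwa [hs])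
  have h3 := h.L3 (by linarith)
  have h4 := h.U2 (by linarith) h1.le
  have h5 : 1 < a' := by nlinarith
  nlinarith

end Vale.Agent.P084
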