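import Mathlib

/-!
Sperner's lemma through mod 2 cochains on lists and iterated barycentric subdivision.
-/

namespace Vale.Agent.P084

open List

/-- Coboundary of a mod 2 cochain on lists. -/
def cob {P : Type} : (List P → ZMod 2) → List P → ZMod 2
  | _, [] => 0
  | ρ, x :: l => ρ l + cob (fun m => ρ (x :: m)) l

theorem two_z (x : ZMod 2) : x + x = 0 := CharTwo.add_self_eq_zero x

theorem cob_add {P : Type} (l : List P) : ∀ ρ ρ' : List P → ZMod 2,
    cob (fun m => ρ m + ρ' m) l = cob ρ l + cob ρ' l := by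
  induction l with
  | nil => intros; simp [cob]
  | cons x l ih => intro ρ ρ'; simp only [cob]; rw [ih]; ring

theorem cob_congr {P : Type} (l : List P) : ∀ {ρ ρ' : List P → ZMod 2},
    (∀ m, m <+ l → m.length + 1 = l.length → ρ m = ρ' m) → cob ρ l = cob ρ' l := by
  induction l with
  | nil => intros; rfl
  | cons x l ih =>
    intro ρ ρ' h
    simp only [cob]
    rw [h l (sublist_cons_self x l) rfl, ih fun m hm hl => h _ (hm.cons_cons x) (by simp [hl])]

theorem cob_zero {P : Type} (l : List P) : cob (fun _ => 0) l = 0 := by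
  induction l with
  | nil => rfl
  | cons x l ih => simp [cob, ih]

theorem cob_cob {P : Type} (l : List P) : ∀ ρ : List P → ZMod 2, cob (cob ρ) l = 0 := by
  induction l with
  | nil => intro; rfl
  | cons x l ih => intro ρ; simp only [cob]; rw [cob_add, ih, add_zero, two_z]

theorem cob_map {P Q : Type} (φ : P → Q) (l : List P) : ∀ ρ : List Q → ZMod 2,
    cob (fun m => ρ (m.map φ)) l = cob ρ (l.map φ) := by
  induction l with
  | nil => intro; rfl
  | cons x l ih => intro ρ; simp only [cob, map_cons]; rw [← ih]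

theorem cob_multiset {I : Type} [DecidableEq I] (A : Multiset I) (l : List I) : ∀ B : Multiset I,
    cob (fun m : List I => if B + ↑m = A then 1 else 0) l =
      (l.map fun x => if B + l = x ::ₘ A then (1 : ZMod 2) else 0).sum := by
  induction l with
  | nil => intro; rfl
  | cons y l ih =>
    intro B
    have e : ∀ m : List I, B + ↑(y :: m) = (y ::ₘ B) + ↑m := fun m => by
      rw [← Multiset.cons_coe, Multiset.add_cons, Multiset.cons_add]
    simp only [cob, map_cons, sum_cons, e]
    rw [ih]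
    simp [Multiset.cons_add]

theorem cob_rainbow {I : Type} [DecidableEq I] {s : I} {S : List I} (hS : (s :: S).Nodup)
    (l : List I) (hl : ∀ x ∈ l, x ∈ s :: S) :
    cob (fun m => if (m : Multiset I) = S then 1 else 0) l =
      if (l : Multiset I) = (s :: S : List I) then 1 else 0 := by
  have := cob_multiset (S : Multiset I) l 0
  simp only [zero_add] at this
  rw [this]
  by_cases h : ∃ x ∈ l, (l : Multiset I) = x ::ₘ S
  · obtain ⟨x, hx, h⟩ := h
    have e : (l.map fun y => if (l : Multiset I) = y ::ₘ S then (1 : ZMod 2) else 0).sum =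
        (l.count x : ZMod 2) := by
      simp only [h, Multiset.cons_inj_left]
      clear h hl hx this
      induction l with
      | nil => simp
      | cons y l ih =>
        rw [map_cons, sum_cons, ih, count_cons]
        by_cases hy : x = y
        · simp [hy, add_comm]
        · simp [hy, Ne.symm hy]
    rw [e, ← Multiset.coe_count, h, Multiset.count_cons_self, Multiset.coe_count,
      ← Multiset.cons_coe]
    rw [nodup_cons] at hS
    rcases mem_cons.1 (hl x hx) with rfl | hx'
    · simp [count_eq_zero_of_not_mem hS.1]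
    · rw [count_eq_one_of_mem hS.2 hx', if_neg]
      · exact two_z 1
      · rw [Multiset.cons_inj_left]; rintro rfl; exact hS.1 hx'
  · rw [if_neg, sum_eq_zero]
    · intro z hz
      obtain ⟨x, hx, rfl⟩ := mem_map.1 hz
      exact if_neg fun h' => h ⟨x, hx, h'⟩
    · intro h'
      refine h ⟨s, ?_, h'⟩
      rw [← Multiset.mem_coe, h']; simp

variable {V : Type} [NormedAddCommGroup V] [NormedSpace ℝ V]

/-- Barycenter of a list. -/
noncomputable def bary (l : List V) : V := (l.length : ℝ)⁻¹ • l.sum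

/-- Barycentric subdivision acting on cochains. -/
noncomputable def sub : ℕ → (List V → ZMod 2) → List V → ZMod 2
  | 0, ρ, _ => ρ []
  | n + 1, ρ, l => cob (sub n fun m => ρ (bary l :: m)) l

theorem sub_add (n : ℕ) : ∀ (ρ ρ' : List V → ZMod 2) (l : List V),
    sub n (fun m => ρ m + ρ' m) l = sub n ρ l + sub n ρ' l := by
  induction n with
  | zero => intros; rfl
  | succ n ih =>
    intro ρ ρ' l
    simp only [sub]
    rw [← cob_add]
    exact congrArg (cob · l) (funext (ih _ _))

theorem sub_cob (n : ℕ) : ∀ (ρ : List V → ZMod 2) (l : List V),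
    sub (n + 1) (cob ρ) l = cob (sub n ρ) l := by
  induction n with
  | zero => intro ρ l; simp [sub, cob]
  | succ n ih =>
    intro ρ l
    rw [sub]
    simp only [cob]
    rw [show sub (n + 1) (fun m => ρ m + cob (fun m => ρ (bary l :: m)) m) = _ from
      funext (sub_add _ _ _), cob_add, show sub (n + 1) (cob fun m => ρ (bary l :: m)) = _ from
      funext (ih _), cob_cob, add_zero]

theorem sum_mem {C : Set V} (hC : Convex ℝ C) (l : List V) (hl : ∀ x ∈ l, x ∈ C) (h0 : l ≠ []) :
    bary l ∈ C := by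
  have := hC.sum_mem (t := Finset.univ) (w := fun _ : Fin l.length => (l.length : ℝ)⁻¹)
    (z := fun i => l[i.1]) (fun _ _ => by positivity)
    (by have := length_pos_iff.2 h0; simp; field_simp) fun i _ => hl _ (getElem_mem _)
  rwa [← Finset.smul_sum, Fin.sum_univ_getElem] at this

theorem dist_bary (l : List V) {δ : ℝ} (hl : ∀ x ∈ l, ∀ y ∈ l, dist x y ≤ δ) {x : V} (hx : x ∈ l) :
    dist x (bary l) ≤ (1 - (l.length : ℝ)⁻¹) * δ := by
  obtain ⟨i, hi, rfl⟩ := getElem_of_mem hx
  have hn : (0 : ℝ) < l.length := by exact_mod_cast (by omega : 0 < l.length)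
  have e : l[i] - bary l = (l.length : ℝ)⁻¹ • ∑ j : Fin l.length, (l[i] - l[j.1]) := by
    rw [Finset.sum_sub_distrib, Fin.sum_univ_getElem, bary, smul_sub]
    simp [← Nat.cast_smul_eq_nsmul ℝ, smul_smul, hn.ne']
  rw [dist_eq_norm, e, norm_smul, ← Finset.sum_erase (a := ⟨i, hi⟩) _ (by simp)]
  have := (norm_sum_le _ _).trans (Finset.sum_le_card_nsmul (Finset.univ.erase (⟨i, hi⟩ : Fin _))
    (fun j : Fin l.length => ‖l[i] - l[j.1]‖) δ fun j _ => by
      rw [← dist_eq_norm]; exact hl _ hx _ (getElem_mem _))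
  rw [Finset.card_erase_of_mem (Finset.mem_univ _), nsmul_eq_mul, Nat.cast_pred (by simp; omega)]
    at this
  simp only [Finset.card_univ, Fintype.card_fin] at this
  rw [Real.norm_of_nonneg (by positivity)]
  calc _ ≤ (l.length : ℝ)⁻¹ * ((l.length - 1) * δ) := by gcongr
    _ = _ := by field_simp

theorem sub_supp {N : ℕ} {δ : ℝ} (hδ : 0 ≤ δ) (n : ℕ) (hn : n ≤ N) :
    ∀ (ρ : List V → ZMod 2) (l : List V), l.length = n → (∀ x ∈ l, ∀ y ∈ l, dist x y ≤ δ) →
      sub n ρ l ≠ 0 → ∃ m, ρ m ≠ 0 ∧ m.length = n ∧ (∀ x ∈ m, x ∈ convexHull ℝ {x | x ∈ l}) ∧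
        ∀ x ∈ m, ∀ y ∈ m, dist x y ≤ (1 - (N : ℝ)⁻¹) * δ := by
  induction n with
  | zero => intro ρ l _ _ h; exact ⟨[], h, rfl, by simp, by simp⟩
  | succ n ih =>
    intro ρ l hl hd h
    have : ∃ l', l' <+ l ∧ l'.length + 1 = l.length ∧ sub n (fun m => ρ (bary l :: m)) l' ≠ 0 := by
      by_contra hc
      push Not at hc
      exact h ((cob_congr l hc).trans (cob_zero l))
    obtain ⟨l', h1, h2, h3⟩ := this
    obtain ⟨m, h4, h5, h6, h7⟩ := ih (by omega) _ l' (by omega)
      (fun x hx y hy => hd x (h1.subset hx) y (h1.subset hy)) h3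
    have h8 : ∀ x ∈ m, x ∈ convexHull ℝ {x | x ∈ l} := fun x hx =>
      convexHull_mono (fun z hz => h1.subset hz) (h6 x hx)
    have hN : (1 : ℝ) ≤ N := by exact_mod_cast (by omega : 1 ≤ N)
    have h9 : ∀ x ∈ m, dist x (bary l) ≤ (1 - (N : ℝ)⁻¹) * δ := fun x hx => by
      refine convexHull_min (t := Metric.closedBall (bary l) _) (fun z hz => ?_)
        (convex_closedBall _ _) (h8 x hx)
      refine (dist_bary l hd hz).trans (mul_le_mul_of_nonneg_right (sub_le_sub_left ?_ _) hδ)
      exact inv_anti₀ (by exact_mod_cast (by omega : 0 < l.length)) (by exact_mod_cast (by omega))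
    refine ⟨_, h4, by simp [h5], ?_, ?_⟩
    · simp only [mem_cons, forall_eq_or_imp]
      exact ⟨sum_mem (convex_convexHull _ _) l (fun x hx => subset_convexHull _ _ hx)
        (by rintro rfl; simp at hl), h8⟩
    · simp only [mem_cons, forall_eq_or_imp]
      refine ⟨⟨?_, fun x hx => by rw [dist_comm]; exact h9 x hx⟩, fun x hx => ⟨h9 x hx, h7 x hx⟩⟩
      rw [dist_self]
      exact mul_nonneg (sub_nonneg.2 (inv_le_one_of_one_le₀ hN)) hδ

theorem iter_supp {N : ℕ} (hN : 1 ≤ N) (n : ℕ) (hn : n ≤ N) (k : ℕ) :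
    ∀ (δ : ℝ) (ρ : List V → ZMod 2) (l : List V), 0 ≤ δ → l.length = n →
      (∀ x ∈ l, ∀ y ∈ l, dist x y ≤ δ) → (sub n)^[k] ρ l ≠ 0 →
      ∃ m, ρ m ≠ 0 ∧ m.length = n ∧ (∀ x ∈ m, x ∈ convexHull ℝ {x | x ∈ l}) ∧
        ∀ x ∈ m, ∀ y ∈ m, dist x y ≤ (1 - (N : ℝ)⁻¹) ^ k * δ := by
  induction k with
  | zero =>
    intro δ ρ l _ hl hd h
    exact ⟨l, h, hl, fun x hx => subset_convexHull _ _ hx, by simpa using hd⟩
  | succ k ih =>
    intro δ ρ l hδ hl hd h
    rw [Function.iterate_succ_apply'] at h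
    obtain ⟨m, h1, h2, h3, h4⟩ := sub_supp hδ n hn _ l hl hd h
    obtain ⟨m', h5, h6, h7, h8⟩ := ih _ ρ m (mul_nonneg (sub_nonneg.2 (inv_le_one_of_one_le₀
      (by exact_mod_cast hN))) hδ) h2 h4 h1
    exact ⟨m', h5, h6, fun x hx => convexHull_min h3 (convex_convexHull _ _) (h7 x hx),
      by simpa [pow_succ, mul_assoc] using h8⟩

theorem iter_add (n k : ℕ) (ρ ρ' : List V → ZMod 2) :
    (sub n)^[k] (fun m => ρ m + ρ' m) = fun l => (sub n)^[k] ρ l + (sub n)^[k] ρ' l := by
  induction k with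
  | zero => rfl
  | succ k ih => funext l; simp only [Function.iterate_succ_apply']; rw [ih, sub_add]

theorem iter_cob (n k : ℕ) (ρ : List V → ZMod 2) :
    (sub (n + 1))^[k] (cob ρ) = cob ((sub n)^[k] ρ) := by
  induction k with
  | zero => rfl
  | succ k ih => funext l; simp only [Function.iterate_succ_apply']; rw [ih, sub_cob]

theorem iter_supp' (n k : ℕ) (ρ : List V → ZMod 2) (l : List V) (hl : l.length = n)
    (h : (sub n)^[k] ρ l ≠ 0) :
    ∃ m, ρ m ≠ 0 ∧ m.length = n ∧ ∀ x ∈ m, x ∈ convexHull ℝ {x | x ∈ l} := by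
  obtain ⟨δ, hδ⟩ := Metric.isBounded_iff.1 (l.finite_toSet.isBounded)
  obtain ⟨m, h1, h2, h3, -⟩ := iter_supp (N := n + 1) (by omega) n (by omega) k (max δ 0) ρ l
    (le_max_right _ _) hl (fun x hx y hy => (hδ hx hy).trans (le_max_left _ _)) h
  exact ⟨m, h1, h2, h3⟩

theorem sperner_parity {I : Type} [DecidableEq I] (e : I → V) (φ : V → I) (T : List I)
    (hφ : ∀ S : List I, S ⊆ T → ∀ x ∈ convexHull ℝ {x | x ∈ S.map e}, φ x ∈ S) (k : ℕ)
    (S : List I) (hS : S.Nodup) (hT : S ⊆ T) :
    (sub S.length)^[k] (fun m => if (m.map φ : Multiset I) = S then 1 else 0) (S.map e) = 1 := by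
  induction S with
  | nil =>
    induction k with
    | zero => simp
    | succ k ih => rw [Function.iterate_succ_apply']; exact ih
  | cons s S ih =>
    have hS' := nodup_cons.1 hS
    have h1 : (sub (S.length + 1))^[k] (fun m => (if (m.map φ : Multiset I) = (s :: S : List I)
        then 1 else 0) + cob (fun m => if (m.map φ : Multiset I) = S then 1 else 0) m)
        ((s :: S).map e) = 0 := by
      by_contra hc
      obtain ⟨m, h1, -, h3⟩ := iter_supp' _ k _ _ (by simp) hc
      refine h1 ?_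
      rw [cob_map φ m fun m => if (m : Multiset I) = S then 1 else 0, cob_rainbow hS, two_z]
      intro x hx
      obtain ⟨y, hy, rfl⟩ := mem_map.1 hx
      exact hφ _ hT y (h3 y hy)
    rw [iter_add, iter_cob] at h1
    simp only [map_cons, cob] at h1
    rw [ih hS'.2 fun x hx => hT (mem_cons_of_mem _ hx), cob_congr _ (ρ' := fun _ => 0), cob_zero,
      add_zero, add_eq_zero_iff_eq_neg] at h1
    · exact h1
    intro m hm hl
    obtain ⟨S', h2, rfl⟩ := sublist_map_iff.1 hm
    simp only [length_map] at hl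
    by_contra hc
    obtain ⟨m, h3, -, h4⟩ := iter_supp' _ k _ _ (by simp [hl]) hc
    have h5 : (m.map φ : Multiset I) = S := by
      by_contra h; exact h3 (if_neg h)
    have h6 : S ⊆ S' := fun j hj => by
      rw [← Multiset.mem_coe, ← h5, Multiset.mem_coe] at hj
      obtain ⟨y, hy, rfl⟩ := mem_map.1 hj
      have h7 := hφ (s :: S') (fun z hz => hT ((h2.cons_cons s).subset hz)) y (h4 y hy)
      refine (mem_cons.1 h7).resolve_left fun h8 => hS'.1 ?_
      rw [← h8, ← Multiset.mem_coe, ← h5, Multiset.mem_coe]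
      exact mem_map_of_mem hy
    have := (hS'.2.subperm h6).length_le
    omega

/-- Sperner's lemma, approximate form. -/
theorem sperner {I : Type} (e : I → V) (φ : V → I) (T : List I) (hT : T.Nodup) (h0 : T ≠ [])
    (hφ : ∀ S : List I, S ⊆ T → ∀ x ∈ convexHull ℝ {x | x ∈ S.map e}, φ x ∈ S) {η : ℝ}
    (hη : 0 < η) : ∃ x₀ ∈ convexHull ℝ {x | x ∈ T.map e}, ∀ i ∈ T,
      ∃ x ∈ convexHull ℝ {x | x ∈ T.map e}, φ x = i ∧ dist x x₀ ≤ η := by
  classical
  obtain ⟨δ, hδ⟩ := Metric.isBounded_iff.1 ((T.map e).finite_toSet.isBounded)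
  have hN : 1 ≤ T.length := length_pos_iff.2 h0
  have hN' : (1 : ℝ) ≤ T.length := by exact_mod_cast hN
  obtain ⟨k, hk⟩ := exists_pow_lt_of_lt_one (show 0 < η / max δ 1 by positivity)
    (show 1 - (T.length : ℝ)⁻¹ < 1 by simp; omega)
  obtain ⟨m, h1, h2, h3, h4⟩ := iter_supp hN T.length le_rfl k (max δ 1) _ (T.map e)
    (by positivity) (by simp) (fun x hx y hy => (hδ hx hy).trans (le_max_left _ _))
    (by rw [sperner_parity e φ T hφ k T hT fun _ h => h]; exact one_ne_zero)
  have h5 : (m.map φ : Multiset I) = T := by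
    by_contra h; exact h1 (if_neg h)
  obtain ⟨x₀, hx₀⟩ := exists_mem_of_length_pos (show 0 < m.length by omega)
  refine ⟨x₀, h3 _ hx₀, fun i hi => ?_⟩
  rw [← Multiset.mem_coe, ← h5, Multiset.mem_coe] at hi
  obtain ⟨y, hy, rfl⟩ := mem_map.1 hi
  exact ⟨y, h3 y hy, rfl, (h4 y hy x₀ hx₀).trans ((lt_div_iff₀ (by positivity)).1 hk).le⟩

end Vale.Agent.P084
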