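import Vale.Agent.P084.Core

/-!
The ultrapower argument: the maximal defect vanishes.
-/

namespace Vale.Agent.P084

open Set Filter Topology

variable {X Y : Type*} [SeminormedAddCommGroup X] [NormedSpace ℝ X]
  [SeminormedAddCommGroup Y] [NormedSpace ℝ Y]

/-- Bounded sequences. -/
def bddSeq (X : Type*) [SeminormedAddCommGroup X] [NormedSpace ℝ X] : Submodule ℝ (ℕ → X) where
  carrier := {f | ∃ C, ∀ n, ‖f n‖ ≤ C}
  add_mem' := fun ⟨C, hC⟩ ⟨C', hC'⟩ => ⟨C + C', fun n => norm_add_le_of_le (hC n) (hC' n)⟩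
  zero_mem' := ⟨0, by simp⟩
  smul_mem' := fun c _ ⟨C, hC⟩ => ⟨‖c‖ * C, fun n => by
    rw [Pi.smul_apply, norm_smul]; exact mul_le_mul_of_nonneg_left (hC n) (norm_nonneg _)⟩

/-- The seminormed ultrapower. -/
def UP (X : Type*) [SeminormedAddCommGroup X] [NormedSpace ℝ X] : Type _ := bddSeq X

instance : AddCommGroup (UP X) := inferInstanceAs (AddCommGroup (bddSeq X))
instance : Module ℝ (UP X) := inferInstanceAs (Module ℝ (bddSeq X))
noncomputable instance : Norm (UP X) := ⟨fun f => ul fun n => ‖f.1 n‖⟩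

theorem UP.tendsto (f : UP X) : Tendsto (fun n => ‖f.1 n‖) (hyperfilter ℕ) (𝓝 ‖f‖) := by
  obtain ⟨C, hC⟩ := f.2
  exact tendsto_ul (C := C) fun n => by simpa using hC n

theorem UP.core : SeminormedSpace.Core ℝ (UP X) where
  norm_nonneg f := ge_of_tendsto' f.tendsto fun _ => norm_nonneg _
  norm_smul c f := tendsto_nhds_unique (c • f).tendsto
    ((f.tendsto.const_mul ‖c‖).congr fun n => (norm_smul c (f.1 n)).symm)
  norm_triangle f g := le_of_tendsto_of_tendsto' (f + g).tendsto (f.tendsto.add g.tendsto)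
    fun n => norm_add_le (f.1 n) (g.1 n)

noncomputable instance : SeminormedAddCommGroup (UP X) := SeminormedAddCommGroup.ofCore UP.core
noncomputable instance : NormedSpace ℝ (UP X) where
  norm_smul_le c f := (UP.core.norm_smul c f).le

/-- The induced map on ultrapowers. -/
def Rad.up {F : X → Y} {D : ℝ} (h : Rad F D) (f : UP X) : UP Y :=
  ⟨fun n => F (f.1 n), by
    obtain ⟨C, hC⟩ := f.2
    exact ⟨C, fun n => by rw [h.norm_map]; exact hC n⟩⟩

theorem Rad.up_rad {F : X → Y} {D : ℝ} (h : Rad F D) : Rad h.up D where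
  surj f := by
    choose g hg using h.surj
    obtain ⟨C, hC⟩ := f.2
    exact ⟨⟨fun n => g (f.1 n), C, fun n => by rw [← h.norm_map, hg]; exact hC n⟩,
      Subtype.ext (funext fun n => hg _)⟩
  norm_map f := tendsto_nhds_unique (h.up f).tendsto (f.tendsto.congr fun n => (h.norm_map _).symm)
  smul μ f hμ := Subtype.ext (funext fun n => h.smul μ _ hμ)
  lip u w := le_of_tendsto_of_tendsto' ((u - w).tendsto.sub (h.up u - h.up w).tendsto).abs
    ((u.tendsto.sub w.tendsto).abs.const_mul 2) fun n => h.lip _ _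
  bd u w := le_of_tendsto_of_tendsto' ((u - w).tendsto.sub (h.up u - h.up w).tendsto).abs
    ((u.tendsto.max w.tendsto).const_mul D) fun n => h.bd _ _

theorem Rad.isometry {F : X → Y} (h : Rad F 2) (u w : X) : ‖u - w‖ = ‖F u - F w‖ := by
  set S := {D | ∃ x p : X, ‖x‖ = 1 ∧ ‖p‖ ≤ 1 ∧ |‖x - p‖ - ‖F x - F p‖| = D} with hS
  have hb : BddAbove S := ⟨2, fun _ ⟨x, p, hx, hp, e⟩ => e ▸ h.le hx hp⟩
  have h1 : ∀ u w : X, ‖w‖ ≤ ‖u‖ → |‖u - w‖ - ‖F u - F w‖| ≤ sSup S * ‖u‖ := fun u w hw => by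
    rcases (norm_nonneg u).eq_or_lt with h0 | h0
    · have := h.bd u w
      rw [max_eq_left hw, ← h0] at this
      simpa [← h0] using this
    · have := le_csSup hb ⟨‖u‖⁻¹ • u, ‖u‖⁻¹ • w, (dir_spec h0).1, by
        rw [norm_smul, norm_inv, norm_norm]; exact inv_mul_le_one_of_le₀ hw h0.le, rfl⟩
      rw [h.smul _ _ (by positivity), h.smul _ _ (by positivity), ← smul_sub, ← smul_sub, norm_smul,
        norm_smul, norm_inv, norm_norm, ← mul_sub, abs_mul, abs_of_pos (inv_pos.2 h0),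
        inv_mul_le_iff₀ h0, mul_comm] at this
      exact this
  have h2 : Rad F (sSup S) := ⟨h.surj, h.norm_map, h.smul, h.lip, fun u w => by
    rcases le_total ‖w‖ ‖u‖ with hw | hw
    · rw [max_eq_left hw]; exact h1 u w hw
    · rw [max_eq_right hw, norm_sub_rev u, norm_sub_rev (F u)]; exact h1 w u hw⟩
  rcases le_or_gt (sSup S) 0 with h3 | h3
  · have := (h2.bd u w).trans (mul_nonpos_of_nonpos_of_nonneg h3 (by positivity))
    rw [abs_nonpos_iff] at this
    linarith
  have hne : S.Nonempty := by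
    by_contra hne
    rw [not_nonempty_iff_eq_empty.1 hne, Real.sSup_empty] at h3
    exact lt_irrefl _ h3
  obtain ⟨d, -, hd, hdS⟩ := exists_seq_tendsto_sSup hne hb
  choose x p hx hp e using hdS
  let x' : UP X := ⟨x, 1, fun n => (hx n).le⟩
  let p' : UP X := ⟨p, 1, hp⟩
  refine (h2.up_rad.core h3 (x₀ := x') (p := p') (tendsto_nhds_unique x'.tendsto
    (tendsto_const_nhds.congr fun n => (hx n).symm)) (le_of_tendsto' p'.tendsto hp) ?_).elim
  exact tendsto_nhds_unique ((x' - p').tendsto.sub (h2.up x' - h2.up p').tendsto).abs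
    ((hd.mono_left Nat.hyperfilter_le_atTop).congr fun n => (e n).symm)

end Vale.Agent.P084
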